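import Vale.Agent.H65.SymAbs.XRay

/-!
# SYMABS row A2: the total mass of the Archimedes weight on the unit ball is `π ^ 2`

Split along a unit vector `e` (e.g. `EuclideanSpace.single 0 1`) with the measure preserving
`H76.splitEquiv e he : E3 ≃L[ℝ] ↥(span {e})ᗮ × ℝ` (`splitEquiv_measurePreserving`; the inverse
sends `(b, t)` to `b + t • e`, and `‖b + t • e‖ ^ 2 = ‖b‖ ^ 2 + t ^ 2`). By Tonelli
(`lintegral_prod`) and `xray_integral 1 0 (‖b‖ ^ 2)` the inner integral is `π` if `‖b‖ < 1` and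
`0` otherwise; the outer integral is `π` times the volume of the unit ball of the plane
`(span {e})ᗮ` (`finrank = 2`, `Submodule.finrank_orthogonal_span_singleton`), which is `π`
(`InnerProductSpace.volume_ball`, with `√π ^ 2 / Gamma (2 / 2 + 1) = π`).
-/

open MeasureTheory Set Module
open scoped ENNReal

namespace Vale.Agent.H65.SymAbs

open Vale.Agent.H76

/-- The inverse of the splitting along `u` sends `(b, t)` to `b + t • u`. -/
theorem ballmass_symm_apply (u : E3) (hu : ‖u‖ = 1) (b : ↥(Submodule.span ℝ {u})ᗮ) (t : ℝ) :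
    (splitEquiv u hu).symm (b, t) = (b : E3) + t • u := by
  simp [splitEquiv, add_comm]

/-- Pythagoras for the splitting along `u`. -/
theorem ballmass_norm_sq (u : E3) (hu : ‖u‖ = 1) (b : ↥(Submodule.span ℝ {u})ᗮ) (t : ℝ) :
    ‖(splitEquiv u hu).symm (b, t)‖ ^ 2 = 1 * (t - 0) ^ 2 + ‖b‖ ^ 2 := by
  rw [ballmass_symm_apply, norm_add_sq_real]
  have h0 : inner ℝ (b : E3) u = 0 :=
    (Submodule.mem_orthogonal_singleton_iff_inner_left).mp b.2
  rw [inner_smul_right, h0, norm_smul, hu]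
  simp only [Submodule.coe_norm, Real.norm_eq_abs, mul_one, mul_zero, add_zero, sq_abs, sub_zero,
    one_mul]
  ring

theorem ball_mass : ∫⁻ y : E3, wt (‖y‖ ^ 2) = ENNReal.ofReal (Real.pi ^ 2) := by
  have he : ‖(EuclideanSpace.single 0 1 : E3)‖ = 1 := by simp
  have he0 : (EuclideanSpace.single 0 1 : E3) ≠ 0 := by
    intro h
    rw [h] at he
    simp at he
  have hfact : Fact (finrank ℝ E3 = 2 + 1) := ⟨by simp⟩
  have hH : finrank ℝ ↥(Submodule.span ℝ {(EuclideanSpace.single 0 1 : E3)})ᗮ = 2 :=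
    Submodule.finrank_orthogonal_span_singleton he0
  have hmp := splitEquiv_measurePreserving (EuclideanSpace.single 0 1 : E3) he
  have hemb : MeasurableEmbedding (splitEquiv (EuclideanSpace.single 0 1 : E3) he) :=
    (splitEquiv (EuclideanSpace.single 0 1 : E3) he).toHomeomorph.measurableEmbedding
  have h1 : ∫⁻ y : E3, wt (‖y‖ ^ 2) =
      ∫⁻ z, wt (‖(splitEquiv (EuclideanSpace.single 0 1 : E3) he).symm z‖ ^ 2)
        ∂(volume.prod volume) := by
    rw [← hmp.lintegral_comp_emb hemb]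
    simp
  have hmeas : Measurable
      (fun z : ↥(Submodule.span ℝ {(EuclideanSpace.single 0 1 : E3)})ᗮ × ℝ =>
        wt (‖(splitEquiv (EuclideanSpace.single 0 1 : E3) he).symm z‖ ^ 2)) := by
    apply measurable_wt.comp
    exact (((splitEquiv (EuclideanSpace.single 0 1 : E3) he).symm.continuous.norm).pow
      2).measurable
  rw [h1, lintegral_prod _ hmeas.aemeasurable]
  have h2 : ∀ b : ↥(Submodule.span ℝ {(EuclideanSpace.single 0 1 : E3)})ᗮ,
      ∫⁻ t : ℝ, wt (‖(splitEquiv (EuclideanSpace.single 0 1 : E3) he).symm (b, t)‖ ^ 2) =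
        (Metric.ball (0 : ↥(Submodule.span ℝ {(EuclideanSpace.single 0 1 : E3)})ᗮ) 1).indicator
          (fun _ => ENNReal.ofReal Real.pi) b := by
    intro b
    simp_rw [ballmass_norm_sq]
    rw [xray_integral 1 0 (‖b‖ ^ 2) one_pos]
    by_cases hb : ‖b‖ < 1
    · have hb2 : ‖b‖ ^ 2 < 1 := by nlinarith [norm_nonneg b]
      rw [if_pos hb2, Set.indicator_of_mem (by simpa using hb)]
      simp
    · have hb2 : ¬ ‖b‖ ^ 2 < 1 := by
        intro h
        apply hb
        nlinarith [norm_nonneg b]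
      rw [if_neg hb2, Set.indicator_of_notMem (by simpa using hb)]
  simp_rw [h2]
  rw [lintegral_indicator_const Metric.isOpen_ball.measurableSet]
  have hnt : Nontrivial ↥(Submodule.span ℝ {(EuclideanSpace.single 0 1 : E3)})ᗮ :=
    Module.nontrivial_of_finrank_pos (R := ℝ) (by rw [hH]; norm_num)
  rw [InnerProductSpace.volume_ball, hH]
  have hg : Real.Gamma (((2 : ℕ) : ℝ) / 2 + 1) = 1 := by
    have h3 : (((2 : ℕ) : ℝ)) / 2 + 1 = 2 := by norm_num
    rw [h3, Real.Gamma_two]
  rw [hg, Real.sq_sqrt Real.pi_pos.le]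
  simp only [ENNReal.ofReal_one, one_pow, one_mul, div_one]
  rw [← ENNReal.ofReal_mul Real.pi_pos.le]
  congr 1
  ring

end Vale.Agent.H65.SymAbs
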