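import Vale.Agent.H65.SymAbs.Defs

/-!
# SYMABS row B16: the characteristic polynomial of a `3 × 3` matrix at an eigenvalue

With `M = LinearMap.toMatrix b b R` for a basis `b` indexed by `Fin 3`
(`LinearMap.det_toMatrix`, `LinearMap.trace_eq_matrix_trace`, `LinearMap.toMatrix_mul`):
` (M - r • 1).mulVec v = 0` for the nonzero coordinate vector `v` of `x`, hence
`det (M - r • 1) = 0` (`Matrix.exists_mulVec_eq_zero_iff`). Expanding with `Matrix.det_fin_three`,
`Matrix.trace_fin_three`, `Matrix.mul_apply`, `Fin.sum_univ_three`: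
`det (M - r • 1) = det M - r * e₂ + r ^ 2 * tr M - r ^ 3` where
`2 e₂ = (tr M) ^ 2 - tr (M * M)` (ring identity in the nine entries), which is the claim.
-/

open Set Filter Topology

namespace Vale.Agent.H65.SymAbs

/-- The entrywise identity behind `charpoly_three`. -/
theorem charpoly_matrix (M : Matrix (Fin 3) (Fin 3) ℝ) (r : ℝ)
    (h : (M - r • (1 : Matrix (Fin 3) (Fin 3) ℝ)).det = 0) :
    r * ((M.trace - r) ^ 2 - (M * M).trace + r ^ 2) = 2 * M.det := by
  rw [Matrix.det_fin_three] at h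
  rw [Matrix.det_fin_three, Matrix.trace_fin_three, Matrix.trace_fin_three]
  simp only [Matrix.sub_apply, Matrix.smul_apply, Matrix.one_apply, Matrix.mul_apply,
    Fin.sum_univ_three, smul_eq_mul] at h ⊢
  simp at h
  linear_combination (-2 : ℝ) * h

theorem charpoly_three (R : E3 →L[ℝ] E3) (r : ℝ) (x : E3) (hx : x ≠ 0) (hRx : R x = r • x) :
    r * ((tr R - r) ^ 2 - tr (R * R) + r ^ 2) = 2 * R.det := by
  classical
  let b := (EuclideanSpace.basisFun (Fin 3) ℝ).toBasis
  let M : Matrix (Fin 3) (Fin 3) ℝ := LinearMap.toMatrix b b (R : E3 →ₗ[ℝ] E3)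
  have htr : tr R = M.trace := by
    unfold tr
    rw [LinearMap.trace_eq_matrix_trace ℝ b]
  have htr2 : tr (R * R) = (M * M).trace := by
    unfold tr
    rw [LinearMap.trace_eq_matrix_trace ℝ b]
    have : ((R * R : E3 →L[ℝ] E3) : E3 →ₗ[ℝ] E3)
        = (R : E3 →ₗ[ℝ] E3) * (R : E3 →ₗ[ℝ] E3) := rfl
    rw [this, LinearMap.toMatrix_mul]
  have hdet : R.det = M.det := by
    rw [ContinuousLinearMap.det, ← LinearMap.det_toMatrix b]
  have hzero : (M - r • (1 : Matrix (Fin 3) (Fin 3) ℝ)).det = 0 := by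
    apply Matrix.exists_mulVec_eq_zero_iff.mp
    refine ⟨b.repr x, ?_, ?_⟩
    · intro h
      apply hx
      have h2 : b.repr x = 0 := by
        ext i
        simpa using congrFun h i
      exact b.repr.map_eq_zero_iff.mp h2
    · have h1 : M.mulVec (b.repr x) = b.repr (R x) := by
        have := LinearMap.toMatrix_mulVec_repr b b (R : E3 →ₗ[ℝ] E3) x
        simpa using this
      rw [Matrix.sub_mulVec, Matrix.smul_mulVec, Matrix.one_mulVec, h1, hRx, map_smul]
      ext i
      simp
  rw [htr, htr2, hdet]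
  exact charpoly_matrix M r hzero

end Vale.Agent.H65.SymAbs
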