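import Vale.Agent.H65.SymAbs.Defs

/-!
# SYMABS row B12: a functional on operators is represented by an operator

For `f` on the operators define `G` by `⟪G a, b⟫ = f (rankOne a b)` where
`InnerProductSpace.rankOne ℝ a b = fun z => ⟪b, z⟫ • a` (bilinear in the pair `a`, `b`), e.g.
`G a = ∑ i, f (rankOne ℝ a (e i)) • e i` for the standard orthonormal basis `e`
(`EuclideanSpace.basisFun (Fin 3) ℝ`), as a linear map made continuous by
`LinearMap.toContinuousLinearMap`. Then `⟪G a, a⟫ = f (dyad a)` (expand `a` in the basis in the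
second slot of `rankOne`), and `tr G = ∑ i, ⟪e i, G (e i)⟫ = ∑ i, f (rankOne (e i) (e i)) = f 1`
(`LinearMap.trace_eq_sum_inner`; `∑ i, rankOne (e i) (e i) = 1` by `OrthonormalBasis.sum_repr'`
or extensionality).
-/

open Set Filter Topology

namespace Vale.Agent.H65.SymAbs

theorem functional_repr (f : (E3 →L[ℝ] E3) →L[ℝ] ℝ) :
    ∃ G : E3 →L[ℝ] E3, (∀ a : E3, f (dyad a) = inner ℝ (G a) a) ∧ f 1 = tr G := by
  classical
  let e : OrthonormalBasis (Fin 3) ℝ E3 := EuclideanSpace.basisFun (Fin 3) ℝ
  let G₀ : E3 →ₗ[ℝ] E3 :=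
    { toFun := fun a => ∑ i, f (InnerProductSpace.rankOne ℝ a (e i)) • e i
      map_add' := by
        intro a b
        simp [map_add, add_smul, Finset.sum_add_distrib]
      map_smul' := by
        intro c a
        simp [map_smul, smul_smul, Finset.smul_sum] }
  have hG₀ : ∀ a, G₀ a = ∑ i, f (InnerProductSpace.rankOne ℝ a (e i)) • e i := fun a => rfl
  refine ⟨LinearMap.toContinuousLinearMap G₀, ?_, ?_⟩
  · intro a
    have h1 : dyad a = ∑ i, inner ℝ (e i) a • InnerProductSpace.rankOne ℝ a (e i) := by
      have h2 : (∑ i, inner ℝ (e i) a • InnerProductSpace.rankOne ℝ a (e i))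
          = InnerProductSpace.rankOne ℝ a (∑ i, inner ℝ (e i) a • e i) := by
        rw [map_sum]
        refine Finset.sum_congr rfl fun i _ => ?_
        rw [map_smulₛₗ]
        simp
      rw [h2, e.sum_repr']
      rfl
    rw [h1, map_sum]
    simp only [LinearMap.coe_toContinuousLinearMap', hG₀, sum_inner, inner_smul_left, map_smul,
      smul_eq_mul]
    refine Finset.sum_congr rfl fun i _ => ?_
    simp [mul_comm]
  · have h1 : (1 : E3 →L[ℝ] E3) = ∑ i, InnerProductSpace.rankOne ℝ (e i) (e i) := by
      ext x : 1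
      simp only [one_apply_eq_self, FunLike.coe_sum, Finset.sum_apply,
        InnerProductSpace.rankOne_apply]
      exact (e.sum_repr' x).symm
    unfold tr
    rw [LinearMap.trace_eq_sum_inner _ e, h1, map_sum]
    refine Finset.sum_congr rfl fun i _ => ?_
    simp only [LinearMap.coe_toContinuousLinearMap, hG₀, inner_sum, inner_smul_right]
    simp [e.inner_eq_ite]

end Vale.Agent.H65.SymAbs
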