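import Vale.Agent.H65.SymAbs.NoDir
import Vale.Agent.H65.SymAbs.Repr

/-!
# SYMABS row B13: the two closed convex hulls meet

`P = closure (convexHull (dyad '' contact K T))` is compact (the generators have norm `1`, the
hull is bounded, `isBounded_convexHull`; proper space) and convex; `Q` is closed and convex. If
they were disjoint, `geometric_hahn_banach_compact_closed` gives `f`, `s < t` with `f < s` on `P`
and `t < f` on `Q`. Take `G₀` from `functional_repr f`, `c = (s + t) / 2`, `G = G₀ - c • 1`,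
`δ = (t - s) / 2`:
* `m ∈ contact K T`: `⟪G m, m⟫ = f (dyad m) - c < s - c = -δ` (`‖m‖ = 1`);
* `x ∈ top T`: `tr G - ⟪G x, x⟫ = (f 1 - 3 c) - (f (dyad x) - c) = 2 f ((1 / 2) • (1 - dyad x))
  - 2 c > 2 t - 2 c = 2 δ ≥ δ` (`tr 1 = 3`, `‖x‖ = 1`).
This contradicts `no_direction`.
-/

open Set Filter Topology

namespace Vale.Agent.H65.SymAbs

/-- The norm of a dyad. -/
theorem common_norm_dyad (a : E3) : ‖dyad a‖ = ‖a‖ * ‖a‖ := by
  unfold dyad
  exact InnerProductSpace.norm_rankOne a a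

/-- The trace of the identity is three. -/
theorem common_tr_one : tr (1 : E3 →L[ℝ] E3) = 3 := by
  unfold tr
  have h : ((1 : E3 →L[ℝ] E3) : E3 →ₗ[ℝ] E3) = 1 := rfl
  rw [h, LinearMap.trace_one]
  simp

/-- The trace is additive and homogeneous in the form needed here. -/
theorem common_tr_sub_smul (G₀ : E3 →L[ℝ] E3) (c : ℝ) :
    tr (G₀ - c • (1 : E3 →L[ℝ] E3)) = tr G₀ - 3 * c := by
  have h1 : tr (G₀ - c • (1 : E3 →L[ℝ] E3)) = tr G₀ - c * tr (1 : E3 →L[ℝ] E3) := by
    unfold tr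
    have h : ((G₀ - c • (1 : E3 →L[ℝ] E3) : E3 →L[ℝ] E3) : E3 →ₗ[ℝ] E3)
        = (G₀ : E3 →ₗ[ℝ] E3) - c • ((1 : E3 →L[ℝ] E3) : E3 →ₗ[ℝ] E3) := rfl
    rw [h, map_sub, map_smul, smul_eq_mul]
  rw [h1, common_tr_one]
  ring

theorem exists_common (K : Set E3) (hKconv : Convex ℝ K) (hKcl : IsClosed K) (h0 : (0 : E3) ∈ K)
    (T : E3 →L[ℝ] E3) (hT : T ∈ feas K) (hdet : T.det ≠ 0)
    (hopt : ∀ T' ∈ feas K, phi T' ≤ phi T) :
    (closure (convexHull ℝ (dyad '' contact K T)) ∩
      closure (convexHull ℝ ((fun x => (1 / 2 : ℝ) • (1 - dyad x)) '' top T))).Nonempty := by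
  by_contra hne
  rw [Set.not_nonempty_iff_eq_empty] at hne
  have hdisj : Disjoint (closure (convexHull ℝ (dyad '' contact K T)))
      (closure (convexHull ℝ ((fun x => (1 / 2 : ℝ) • (1 - dyad x)) '' top T))) :=
    Set.disjoint_iff_inter_eq_empty.mpr hne
  -- boundedness of the generators of `P`
  have hbdd : Bornology.IsBounded (dyad '' contact K T) := by
    rw [isBounded_iff_forall_norm_le]
    refine ⟨1, ?_⟩
    rintro _ ⟨m, hm, rfl⟩
    rw [common_norm_dyad, hm.1]
    norm_num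
  have hPcomp : IsCompact (closure (convexHull ℝ (dyad '' contact K T))) :=
    Metric.isCompact_of_isClosed_isBounded isClosed_closure
      ((isBounded_convexHull.mpr hbdd).closure)
  have hPconv : Convex ℝ (closure (convexHull ℝ (dyad '' contact K T))) :=
    (convex_convexHull ℝ _).closure
  have hQconv : Convex ℝ
      (closure (convexHull ℝ ((fun x => (1 / 2 : ℝ) • (1 - dyad x)) '' top T))) :=
    (convex_convexHull ℝ _).closure
  obtain ⟨f, s, t, hfs, hst, hft⟩ :=
    geometric_hahn_banach_compact_closed hPconv hPcomp hQconv isClosed_closure hdisj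
  obtain ⟨G₀, hG₀, hG₀tr⟩ := functional_repr f
  have hδ : 0 < (t - s) / 2 := by linarith
  refine no_direction K hKconv hKcl h0 T hT hdet hopt (G₀ - ((s + t) / 2) • (1 : E3 →L[ℝ] E3))
    ((t - s) / 2) hδ ?_ ?_
  · intro m hm
    have h1 : f (dyad m) < s :=
      hfs _ (subset_closure (subset_convexHull ℝ _ (Set.mem_image_of_mem _ hm)))
    have h2 : inner ℝ ((G₀ - ((s + t) / 2) • (1 : E3 →L[ℝ] E3)) m) m
        = inner ℝ (G₀ m) m - (s + t) / 2 := by
      have h3 : (G₀ - ((s + t) / 2) • (1 : E3 →L[ℝ] E3)) m = G₀ m - ((s + t) / 2) • m := rfl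
      rw [h3, inner_sub_left, real_inner_smul_left, real_inner_self_eq_norm_sq, hm.1]
      ring
    rw [h2, ← hG₀ m]
    linarith
  · intro x hx
    have h1 : t < f ((1 / 2 : ℝ) • (1 - dyad x)) :=
      hft _ (subset_closure (subset_convexHull ℝ _ (Set.mem_image_of_mem _ hx)))
    have h2 : inner ℝ ((G₀ - ((s + t) / 2) • (1 : E3 →L[ℝ] E3)) x) x
        = inner ℝ (G₀ x) x - (s + t) / 2 := by
      have h3 : (G₀ - ((s + t) / 2) • (1 : E3 →L[ℝ] E3)) x = G₀ x - ((s + t) / 2) • x := rfl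
      rw [h3, inner_sub_left, real_inner_smul_left, real_inner_self_eq_norm_sq, hx.1]
      ring
    have h4 : f ((1 / 2 : ℝ) • (1 - dyad x)) = (1 / 2) * (f 1 - f (dyad x)) := by
      rw [map_smul, map_sub, smul_eq_mul]
    rw [h2, common_tr_sub_smul, ← hG₀ x, ← hG₀tr]
    rw [h4] at h1
    linarith

end Vale.Agent.H65.SymAbs
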