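import Vale.Agent.H65.SymAbs.Defs

/-!
# SYMABS row B14: the form `ff` on two rank one operators

`R * dyad a = rankOne (R a) a` (`ContinuousLinearMap.comp_rankOne`), with trace `⟪a, R a⟫`
(`InnerProductSpace.trace_rankOne`); `rankOne (R a) a * rankOne (R b) b = ⟪a, R b⟫ • rankOne (R a) b`
with trace `⟪a, R b⟫ * ⟪b, R a⟫`. Real inner products are symmetric (`real_inner_comm`).
-/

open Set Filter Topology

namespace Vale.Agent.H65.SymAbs

lemma ffdyad_tr_rankOne (x y : E3) :
    tr (InnerProductSpace.rankOne ℝ x y) = inner ℝ y x := by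
  unfold tr
  exact InnerProductSpace.trace_rankOne x y

lemma ffdyad_comp (R : E3 →L[ℝ] E3) (c : E3) :
    R * dyad c = InnerProductSpace.rankOne ℝ (R c) c :=
  InnerProductSpace.comp_rankOne c c R

lemma ffdyad_tr_smul (t : ℝ) (x y : E3) :
    tr (t • InnerProductSpace.rankOne ℝ x y) = t * inner ℝ y x := by
  have h : tr (t • InnerProductSpace.rankOne ℝ x y)
      = t * tr (InnerProductSpace.rankOne ℝ x y) := by
    unfold tr
    rw [ContinuousLinearMap.toLinearMap_smul, map_smul, smul_eq_mul]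
  rw [h, ffdyad_tr_rankOne]

theorem ff_dyad (R : E3 →L[ℝ] E3) (a b : E3) :
    ff R (dyad a) (dyad b) =
      inner ℝ (R a) a * inner ℝ (R b) b - inner ℝ (R a) b * inner ℝ (R b) a := by
  have h2 : R * dyad a * (R * dyad b)
      = (inner ℝ a (R b) : ℝ) • InnerProductSpace.rankOne ℝ (R a) b := by
    rw [ffdyad_comp, ffdyad_comp]
    exact InnerProductSpace.rankOne_comp_rankOne (R a) a (R b) b
  unfold ff
  rw [h2, ffdyad_comp, ffdyad_comp, ffdyad_tr_rankOne, ffdyad_tr_rankOne, ffdyad_tr_smul]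
  have e1 : (inner ℝ a (R a) : ℝ) = inner ℝ (R a) a := real_inner_comm _ _
  have e2 : (inner ℝ b (R b) : ℝ) = inner ℝ (R b) b := real_inner_comm _ _
  have e3 : (inner ℝ a (R b) : ℝ) = inner ℝ (R b) a := real_inner_comm _ _
  have e4 : (inner ℝ b (R a) : ℝ) = inner ℝ (R a) b := real_inner_comm _ _
  rw [e1, e2, e3, e4]
  ring

end Vale.Agent.H65.SymAbs
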