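import Vale.Agent.H65.SymAbs.Defs

/-!
# SYMABS row B17: bounds for the form `ff` pass to closed convex hulls

For fixed `b` the map `a ↦ ff R a b` is linear (trace and composition are linear), hence
continuous (finite dimension), so `{a | ff R a b ≤ Γ}` is closed and convex and contains `S`,
hence `closure (convexHull ℝ S)` (`convexHull_min`, `closure_minimal`). Then fix `Z` in the closed
hull in the first slot and repeat in the second slot.
-/

open Set Filter Topology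

namespace Vale.Agent.H65.SymAbs

theorem ffh_tr_add (X Y : E3 →L[ℝ] E3) : tr (X + Y) = tr X + tr Y := by
  simp [tr]

theorem ffh_tr_smul (c : ℝ) (X : E3 →L[ℝ] E3) : tr (c • X) = c * tr X := by
  simp [tr]

theorem ffh_mul_smul (R Z : E3 →L[ℝ] E3) (a : ℝ) : R * (a • Z) = a • (R * Z) := by
  ext x
  simp

theorem ffh_smul_mul (R Z : E3 →L[ℝ] E3) (a : ℝ) : (a • R) * Z = a • (R * Z) := by
  ext x
  simp

theorem ffh_linear_left (R b : E3 →L[ℝ] E3) : IsLinearMap ℝ (fun a => ff R a b) := by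
  constructor
  · intro x y
    simp only [ff, mul_add, add_mul, ffh_tr_add]
    ring
  · intro c x
    simp only [ff, ffh_mul_smul, ffh_smul_mul, ffh_tr_smul, smul_eq_mul]
    ring

theorem ffh_linear_right (R a : E3 →L[ℝ] E3) : IsLinearMap ℝ (fun b => ff R a b) := by
  constructor
  · intro x y
    simp only [ff, mul_add, ffh_tr_add]
    ring
  · intro c x
    simp only [ff, ffh_mul_smul, ffh_tr_smul, smul_eq_mul]
    ring

theorem ffh_closed_hull_le {f : (E3 →L[ℝ] E3) → ℝ} (hf : IsLinearMap ℝ f)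
    (S : Set (E3 →L[ℝ] E3)) (Γ : ℝ) (h : ∀ a ∈ S, f a ≤ Γ) :
    ∀ Z ∈ closure (convexHull ℝ S), f Z ≤ Γ := by
  have hc : Continuous f := (hf.mk' f).continuous_of_finiteDimensional
  have hconv : Convex ℝ {a | f a ≤ Γ} := convex_halfSpace_le hf Γ
  have hclosed : IsClosed {a | f a ≤ Γ} := isClosed_le hc continuous_const
  intro Z hZ
  exact closure_minimal (convexHull_min h hconv) hclosed hZ

theorem ffh_closed_hull_ge {f : (E3 →L[ℝ] E3) → ℝ} (hf : IsLinearMap ℝ f)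
    (S : Set (E3 →L[ℝ] E3)) (Γ : ℝ) (h : ∀ a ∈ S, Γ ≤ f a) :
    ∀ Z ∈ closure (convexHull ℝ S), Γ ≤ f Z := by
  have hc : Continuous f := (hf.mk' f).continuous_of_finiteDimensional
  have hconv : Convex ℝ {a | Γ ≤ f a} := convex_halfSpace_ge hf Γ
  have hclosed : IsClosed {a | Γ ≤ f a} := isClosed_le continuous_const hc
  intro Z hZ
  exact closure_minimal (convexHull_min h hconv) hclosed hZ

theorem ff_hull_le (R : E3 →L[ℝ] E3) (S : Set (E3 →L[ℝ] E3)) (Γ : ℝ)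
    (h : ∀ a ∈ S, ∀ b ∈ S, ff R a b ≤ Γ) :
    ∀ Z ∈ closure (convexHull ℝ S), ff R Z Z ≤ Γ := by
  intro Z hZ
  have h1 : ∀ b ∈ S, ff R Z b ≤ Γ := fun b hb =>
    ffh_closed_hull_le (ffh_linear_left R b) S Γ (fun a ha => h a ha b hb) Z hZ
  exact ffh_closed_hull_le (ffh_linear_right R Z) S Γ h1 Z hZ

theorem ff_hull_ge (R : E3 →L[ℝ] E3) (S : Set (E3 →L[ℝ] E3)) (Γ : ℝ)
    (h : ∀ a ∈ S, ∀ b ∈ S, Γ ≤ ff R a b) :
    ∀ Z ∈ closure (convexHull ℝ S), Γ ≤ ff R Z Z := by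
  intro Z hZ
  have h1 : ∀ b ∈ S, Γ ≤ ff R Z b := fun b hb =>
    ffh_closed_hull_ge (ffh_linear_left R b) S Γ (fun a ha => h a ha b hb) Z hZ
  exact ffh_closed_hull_ge (ffh_linear_right R Z) S Γ h1 Z hZ

theorem ff_smul (R Z₁ Z₂ : E3 →L[ℝ] E3) (a b : ℝ) :
    ff R (a • Z₁) (b • Z₂) = a * b * ff R Z₁ Z₂ := by
  simp only [ff, ffh_mul_smul, ffh_smul_mul, ffh_tr_smul]
  ring

end Vale.Agent.H65.SymAbs
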