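import Vale.Agent.H65.SymAbs.Defs

/-!
# SYMABS row B15: the form `ff` on two complementary projections of eigenvectors

`tr (R * (1 - dyad x)) = tr R - ⟪x, R x⟫ = tr R - r` (`‖x‖ = 1`), likewise for `x'`.
`R * (1 - dyad x) * (R * (1 - dyad x')) = R * R - R * R * dyad x' - R * dyad x * R
  + R * dyad x * R * dyad x'`, with traces `tr (R * R)`, `⟪x', R (R x')⟫ = r ^ 2`,
`tr (R * dyad x * R) = tr (R * R * dyad x) = r ^ 2` (`LinearMap.trace_mul_comm`), and
`⟪x, R x'⟫ * ⟪x', R x⟫ = r ^ 2 ⟪x, x'⟫ ^ 2`. Hence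
`ff = (tr R - r) ^ 2 - tr (R * R) + 2 r ^ 2 - r ^ 2 ⟪x, x'⟫ ^ 2`.
-/

open Set Filter Topology

namespace Vale.Agent.H65.SymAbs

lemma fftop_tr_sub (A B : E3 →L[ℝ] E3) : tr (A - B) = tr A - tr B := by
  unfold tr
  rw [ContinuousLinearMap.toLinearMap_sub, map_sub]

lemma fftop_tr_add (A B : E3 →L[ℝ] E3) : tr (A + B) = tr A + tr B := by
  unfold tr
  rw [ContinuousLinearMap.toLinearMap_add, map_add]

lemma fftop_tr_smul (t : ℝ) (A : E3 →L[ℝ] E3) : tr (t • A) = t * tr A := by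
  unfold tr
  rw [ContinuousLinearMap.toLinearMap_smul, map_smul, smul_eq_mul]

lemma fftop_tr_comm (A B : E3 →L[ℝ] E3) : tr (A * B) = tr (B * A) := by
  unfold tr
  exact LinearMap.trace_mul_comm ℝ (A : E3 →ₗ[ℝ] E3) (B : E3 →ₗ[ℝ] E3)

lemma fftop_tr_rankOne (x y : E3) :
    tr (InnerProductSpace.rankOne ℝ x y) = inner ℝ y x := by
  unfold tr
  exact InnerProductSpace.trace_rankOne x y

/-- `R * dyad x = r • dyad x` for an eigenvector. -/
lemma fftop_comp (R : E3 →L[ℝ] E3) (r : ℝ) (x : E3) (hRx : R x = r • x) :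
    R * dyad x = r • dyad x := by
  have h : R * dyad x = InnerProductSpace.rankOne ℝ (R x) x :=
    InnerProductSpace.comp_rankOne x x R
  rw [h, hRx]
  unfold dyad
  rw [map_smul]
  rfl

lemma fftop_tr_dyad (x : E3) (hx : ‖x‖ = 1) : tr (dyad x) = 1 := by
  unfold dyad
  rw [fftop_tr_rankOne, real_inner_self_eq_norm_sq, hx]
  norm_num

lemma fftop_dyad_mul (x x' : E3) :
    dyad x * dyad x' = (inner ℝ x x' : ℝ) • InnerProductSpace.rankOne ℝ x x' :=
  InnerProductSpace.rankOne_comp_rankOne x x x' x'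

lemma fftop_mul_smul (R A : E3 →L[ℝ] E3) (t : ℝ) : R * (t • A) = t • (R * A) := by
  ext z
  simp

lemma fftop_smul_mul (R A : E3 →L[ℝ] E3) (t : ℝ) : (t • A) * R = t • (A * R) := by
  ext z
  simp

lemma fftop_smul_mul_smul (A B : E3 →L[ℝ] E3) (t u : ℝ) :
    (t • A) * (u • B) = (t * u) • (A * B) := by
  ext z
  simp [smul_smul, mul_comm]

theorem ff_top (R : E3 →L[ℝ] E3) (r : ℝ) (x x' : E3) (hx : ‖x‖ = 1)
    (hx' : ‖x'‖ = 1) (hRx : R x = r • x) (hRx' : R x' = r • x') :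
    ff R (1 - dyad x) (1 - dyad x') =
      (tr R - r) ^ 2 - tr (R * R) + r ^ 2 + r ^ 2 * (1 - (inner ℝ x x') ^ 2) := by
  have hA : R * (1 - dyad x) = R - r • dyad x := by
    rw [mul_sub, mul_one, fftop_comp R r x hRx]
  have hB : R * (1 - dyad x') = R - r • dyad x' := by
    rw [mul_sub, mul_one, fftop_comp R r x' hRx']
  have hprod : (R - r • dyad x) * (R - r • dyad x')
      = R * R - r • (r • dyad x') - r • (dyad x * R)
        + (r * r) • ((inner ℝ x x' : ℝ) • InnerProductSpace.rankOne ℝ x x') := by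
    have e0 : (R - r • dyad x) * (R - r • dyad x')
        = R * R - R * (r • dyad x') - (r • dyad x) * R + (r • dyad x) * (r • dyad x') := by
      rw [sub_mul, mul_sub, mul_sub]
      abel
    rw [e0, fftop_mul_smul, fftop_comp R r x' hRx', fftop_smul_mul, fftop_smul_mul_smul,
      fftop_dyad_mul]
  have h1 : tr (dyad x * R) = r := by
    rw [fftop_tr_comm, fftop_comp R r x hRx, fftop_tr_smul, fftop_tr_dyad x hx, mul_one]
  unfold ff
  rw [hA, hB, hprod, fftop_tr_sub, fftop_tr_sub, fftop_tr_add, fftop_tr_sub, fftop_tr_sub,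
    fftop_tr_smul, fftop_tr_smul, fftop_tr_smul, fftop_tr_smul, fftop_tr_smul, fftop_tr_smul,
    fftop_tr_dyad x hx, fftop_tr_dyad x' hx', h1, fftop_tr_smul, fftop_tr_rankOne]
  have e : (inner ℝ x' x : ℝ) = inner ℝ x x' := real_inner_comm _ _
  rw [e]
  ring

end Vale.Agent.H65.SymAbs
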