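import Vale.Agent.H65.SymAbs.TopEigen

/-!
# SYMABS row B18: the operator `R = (Tᵀ T)⁻¹`

`T` is invertible (`T.det ≠ 0`): let `A` be its inverse (`A * T = 1`, `T * A = 1`), `A†` its
adjoint (`ContinuousLinearMap.adjoint`), and `R = A * A†`.
* `x ∈ top T`: `top_eigen` says `⟪T x, T y⟫ = ‖T‖ ^ 2 ⟪x, y⟫` for all `y`; with `y = A z`:
  `⟪T x, z⟫ = ‖T‖ ^ 2 ⟪x, A z⟫ = ‖T‖ ^ 2 ⟪A† x, z⟫`, so `T x = ‖T‖ ^ 2 • A† x` and
  `x = A (T x) = ‖T‖ ^ 2 • R x`; `‖T‖ ≠ 0`.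
* `det R = det A * det A† = (det A) ^ 2 = (det T ^ 2)⁻¹` (the determinant of the adjoint equals the
  determinant: matrices in an orthonormal basis are transposes).
* symmetry: `⟪R a, b⟫ = ⟪A† a, A† b⟫`.
* `⟪T y, n⟫ = ⟪y, m⟫` for all `y` gives (with `y = A z`) `⟪z, n⟫ = ⟪A z, m⟫ = ⟪z, A† m⟫`, so
  `n = A† m`; likewise `n' = A† m'`; `⟪n, n'⟫ = ⟪A† m, A† m'⟫ = ⟪R m, m'⟫`.
-/

open Set Filter Topology

namespace Vale.Agent.H65.SymAbs

/-- The determinant of the adjoint equals the determinant. -/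
theorem resolvent_det_adjoint (A : E3 →L[ℝ] E3) :
    (ContinuousLinearMap.adjoint A).det = A.det := by
  have h2 : ((ContinuousLinearMap.adjoint A : E3 →L[ℝ] E3) : E3 →ₗ[ℝ] E3)
      = LinearMap.adjoint (A : E3 →ₗ[ℝ] E3) := rfl
  have h1 := LinearMap.toMatrix_adjoint (EuclideanSpace.basisFun (Fin 3) ℝ)
    (EuclideanSpace.basisFun (Fin 3) ℝ) (A : E3 →ₗ[ℝ] E3)
  have h3 := congrArg Matrix.det h1
  rw [Matrix.det_conjTranspose, LinearMap.det_toMatrix, LinearMap.det_toMatrix] at h3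
  show LinearMap.det ((ContinuousLinearMap.adjoint A : E3 →L[ℝ] E3) : E3 →ₗ[ℝ] E3)
    = LinearMap.det (A : E3 →ₗ[ℝ] E3)
  rw [h2, h3]
  simp

theorem resolvent (T : E3 →L[ℝ] E3) (hdet : T.det ≠ 0) :
    ∃ R : E3 →L[ℝ] E3, (∀ x ∈ top T, R x = (‖T‖ ^ 2)⁻¹ • x) ∧ R.det = (T.det ^ 2)⁻¹ ∧
      (∀ a b : E3, inner ℝ (R a) b = inner ℝ (R b) a) ∧
      ∀ m m' n n' : E3, (∀ y : E3, inner ℝ (T y) n = inner ℝ y m) →
        (∀ y : E3, inner ℝ (T y) n' = inner ℝ y m') → inner ℝ n n' = inner ℝ (R m) m' := by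
  obtain ⟨e, he⟩ : ∃ e : E3 ≃L[ℝ] E3, (e : E3 →L[ℝ] E3) = T :=
    ⟨T.toContinuousLinearEquivOfDetNeZero hdet, T.coe_toContinuousLinearEquivOfDetNeZero hdet⟩
  have heT : ∀ y, e y = T y := fun y => by
    rw [← he]
    rfl
  obtain ⟨A, hA⟩ : ∃ A : E3 →L[ℝ] E3, A = (e.symm : E3 →L[ℝ] E3) := ⟨_, rfl⟩
  have hAT : ∀ y, A (T y) = y := fun y => by
    rw [hA, ← heT]
    exact e.symm_apply_apply y
  have hTA : ∀ z, T (A z) = z := fun z => by
    rw [hA, ← heT]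
    exact e.apply_symm_apply z
  obtain ⟨Ad, hAd⟩ : ∃ Ad : E3 →L[ℝ] E3, Ad = ContinuousLinearMap.adjoint A := ⟨_, rfl⟩
  have hAdl : ∀ x y : E3, inner ℝ (Ad y) x = inner ℝ y (A x) := fun x y => by
    rw [hAd]
    exact ContinuousLinearMap.adjoint_inner_left A x y
  have hAdr : ∀ x y : E3, inner ℝ x (Ad y) = inner ℝ (A x) y := fun x y => by
    rw [hAd]
    exact ContinuousLinearMap.adjoint_inner_right A x y
  have hRv : ∀ x : E3, (A * Ad) x = A (Ad x) := fun x => rfl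
  refine ⟨A * Ad, ?_, ?_, ?_, ?_⟩
  · intro x hx
    obtain ⟨hx1, hx2⟩ := hx
    have hxne : x ≠ 0 := by
      intro h
      rw [h, norm_zero] at hx1
      exact zero_ne_one hx1
    have hTx : T x ≠ 0 := by
      intro h
      have hthis := hAT x
      rw [h, map_zero] at hthis
      exact hxne hthis.symm
    have hTn : ‖T‖ ≠ 0 := by
      rw [← hx2]
      exact norm_ne_zero_iff.mpr hTx
    have hkey : T x = ‖T‖ ^ 2 • Ad x := by
      apply ext_inner_right ℝ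
      intro z
      have h1 := top_eigen T x ⟨hx1, hx2⟩ (A z)
      rw [hTA] at h1
      rw [h1, inner_smul_left, hAdl]
      simp
    have h2 : x = ‖T‖ ^ 2 • A (Ad x) := by
      have hthis := congrArg A hkey
      rw [hAT, map_smul] at hthis
      exact hthis
    rw [hRv]
    calc A (Ad x) = (‖T‖ ^ 2)⁻¹ • (‖T‖ ^ 2 • A (Ad x)) := by
          rw [smul_smul, inv_mul_cancel₀ (pow_ne_zero 2 hTn), one_smul]
      _ = (‖T‖ ^ 2)⁻¹ • x := by rw [← h2]
  · have hmul : (A * Ad).det = A.det * Ad.det := by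
      show LinearMap.det (((A * Ad : E3 →L[ℝ] E3)) : E3 →ₗ[ℝ] E3)
        = LinearMap.det (A : E3 →ₗ[ℝ] E3) * LinearMap.det (Ad : E3 →ₗ[ℝ] E3)
      rw [← LinearMap.det_comp]
      rfl
    have hAdet : A.det * T.det = 1 := by
      have h1 : A.det * T.det = (A * T).det := by
        show LinearMap.det (A : E3 →ₗ[ℝ] E3) * LinearMap.det (T : E3 →ₗ[ℝ] E3)
          = LinearMap.det (((A * T : E3 →L[ℝ] E3)) : E3 →ₗ[ℝ] E3)
        rw [← LinearMap.det_comp]
        rfl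
      have h2 : A * T = 1 := by
        ext y
        exact congrArg (fun v : E3 => v.ofLp _) (hAT y)
      rw [h1, h2]
      show LinearMap.det (((1 : E3 →L[ℝ] E3)) : E3 →ₗ[ℝ] E3) = 1
      exact LinearMap.det_id
    have hAinv : A.det = (T.det)⁻¹ := eq_inv_of_mul_eq_one_left hAdet
    have hAdd : Ad.det = A.det := by
      rw [hAd]
      exact resolvent_det_adjoint A
    rw [hmul, hAdd, hAinv]
    field_simp
  · intro a b
    rw [hRv, hRv, ← hAdr (Ad a) b, ← hAdr (Ad b) a]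
    exact real_inner_comm _ _
  · intro m m' n n' h h'
    have hn : n = Ad m := by
      apply ext_inner_left ℝ
      intro z
      have hthis := h (A z)
      rw [hTA] at hthis
      rw [hthis, hAdr]
    have hn' : n' = Ad m' := by
      apply ext_inner_left ℝ
      intro z
      have hthis := h' (A z)
      rw [hTA] at hthis
      rw [hthis, hAdr]
    rw [hn, hn', hRv, ← hAdr (Ad m) m']

end Vale.Agent.H65.SymAbs
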