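import Vale.Agent.H65.SymAbs.Defs

/-!
# SYMABS row B4: a contact direction gives a slab containing `K`

`T m` is in `K` (closed) and not in `interior K` (open, convex, nonempty because it contains
`T (ball 0 1)`, `T` being invertible). `geometric_hahn_banach_open_point` gives `f` with
`f a < f (T m)` on `interior K`, hence `f a ≤ f (T m)` on `K = closure (interior K)`
(`Convex.closure_interior_eq_closure_of_nonempty_interior`). Write `f = ⟪w, ·⟫` and
`f ∘ T = ⟪v, ·⟫` (`InnerProductSpace.toDual`); `v ≠ 0` since `f ≠ 0` and `T` is surjective.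
From `⟪v, y⟫ ≤ ⟪v, m⟫` for `‖y‖ ≤ 1` (take `y = v / ‖v‖`) and `‖m‖ = 1`: `⟪v, m⟫ = ‖v‖`, so
`v = ‖v‖ • m` (equality in Cauchy-Schwarz, `inner_eq_norm_mul_iff`). Take `n = ‖v‖⁻¹ • w`:
`⟪T y, n⟫ = ⟪v, y⟫ / ‖v‖ = ⟪m, y⟫`, and for `x ∈ K`: `⟪x, n⟫ = f x / ‖v‖ ≤ f (T m) / ‖v‖ = 1`;
apply this to `-x ∈ K` as well.
-/

open Set Filter Topology

namespace Vale.Agent.H65.SymAbs

theorem contact_slab (K : Set E3) (hKconv : Convex ℝ K) (hKcl : IsClosed K)
    (hKsym : ∀ x ∈ K, -x ∈ K) (T : E3 →L[ℝ] E3) (hT : T ∈ feas K) (hdet : T.det ≠ 0)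
    (m : E3) (hm : m ∈ contact K T) :
    ∃ n : E3, (∀ y : E3, inner ℝ (T y) n = inner ℝ y m) ∧ ∀ x ∈ K, |inner ℝ x n| ≤ 1 := by
  obtain ⟨hm1, hmf⟩ := hm
  have _hcl := hKcl
  have hopen : IsOpen (T '' Metric.ball (0 : E3) 1) := by
    have h := (T.toContinuousLinearEquivOfDetNeZero hdet).isOpenMap _
      (Metric.isOpen_ball (x := (0 : E3)) (ε := 1))
    have himg : (T.toContinuousLinearEquivOfDetNeZero hdet) '' Metric.ball (0 : E3) 1
        = T '' Metric.ball (0 : E3) 1 := Set.image_congr fun x _ => rfl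
    rwa [himg] at h
  have hsub : T '' Metric.ball (0 : E3) 1 ⊆ K := by
    rintro _ ⟨y, hy, rfl⟩
    exact hT y (le_of_lt (mem_ball_zero_iff.mp hy))
  have hint : T '' Metric.ball (0 : E3) 1 ⊆ interior K := interior_maximal hsub hopen
  have h0 : (0 : E3) ∈ interior K := hint ⟨0, Metric.mem_ball_self one_pos, map_zero T⟩
  have hTm : T m ∉ interior K := hmf.2
  obtain ⟨f, hf⟩ := geometric_hahn_banach_open_point hKconv.interior isOpen_interior hTm
  have hfK : ∀ x ∈ K, f x ≤ f (T m) := by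
    intro x hx
    have hx' : x ∈ closure (interior K) := by
      rw [hKconv.closure_interior_eq_closure_of_nonempty_interior ⟨0, h0⟩]
      exact subset_closure hx
    have hclosed : IsClosed {a : E3 | f a ≤ f (T m)} :=
      isClosed_le f.continuous continuous_const
    exact closure_minimal (fun a ha => (hf a ha).le) hclosed hx'
  have hc : 0 < f (T m) := by
    have h := hf 0 h0
    rwa [map_zero] at h
  have hwx : ∀ x : E3, inner ℝ ((InnerProductSpace.toDual ℝ E3).symm f) x = f x :=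
    fun x => InnerProductSpace.toDual_symm_apply
  have hvy : ∀ y : E3,
      inner ℝ ((InnerProductSpace.toDual ℝ E3).symm (f.comp T)) y = f (T y) :=
    fun y => InnerProductSpace.toDual_symm_apply
  generalize (InnerProductSpace.toDual ℝ E3).symm f = w at hwx
  generalize (InnerProductSpace.toDual ℝ E3).symm (f.comp T) = v at hvy
  have hvm : inner ℝ v m = f (T m) := hvy m
  have hv0 : v ≠ 0 := by
    intro h
    rw [h, inner_zero_left] at hvm
    linarith
  have hvpos : 0 < ‖v‖ := norm_pos_iff.mpr hv0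
  have h1 : ‖v‖ ≤ inner ℝ v m := by
    have hy : ‖(‖v‖⁻¹ • v)‖ ≤ 1 := by
      rw [norm_smul, norm_inv, norm_norm, inv_mul_cancel₀ hvpos.ne']
    have h2 := hfK _ (hT _ hy)
    rw [← hvy, ← hvm, real_inner_smul_right, real_inner_self_eq_norm_sq] at h2
    have e : ‖v‖⁻¹ * ‖v‖ ^ 2 = ‖v‖ := by field_simp
    linarith
  have h2 : inner ℝ v m ≤ ‖v‖ * ‖m‖ := real_inner_le_norm v m
  have h3 : inner ℝ v m = ‖v‖ * ‖m‖ := le_antisymm h2 (by rw [hm1, mul_one]; exact h1)
  have h4 : v = ‖v‖ • m := by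
    have h := inner_eq_norm_mul_iff_real.mp h3
    rwa [hm1, one_smul] at h
  have hcv : f (T m) = ‖v‖ := by rw [← hvm, h3, hm1, mul_one]
  have h5 : ∀ y : E3, inner ℝ v y = ‖v‖ * inner ℝ m y := by
    intro y
    calc inner ℝ v y = inner ℝ (‖v‖ • m) y := by rw [← h4]
      _ = ‖v‖ * inner ℝ m y := by rw [real_inner_smul_left]
  have key : ∀ z ∈ K, inner ℝ z (‖v‖⁻¹ • w) ≤ 1 := by
    intro z hz
    rw [real_inner_smul_right, real_inner_comm, hwx]
    have h := hfK z hz
    rw [hcv] at h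
    rw [inv_mul_le_iff₀ hvpos]
    linarith
  refine ⟨‖v‖⁻¹ • w, fun y => ?_, fun x hx => ?_⟩
  · rw [real_inner_smul_right, real_inner_comm, hwx, ← hvy, h5, real_inner_comm y m]
    field_simp
  · rw [abs_le]
    constructor
    · have h := key (-x) (hKsym x hx)
      rw [inner_neg_left] at h
      linarith
    · exact key x hx

end Vale.Agent.H65.SymAbs
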