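import Vale.Agent.H65.SymAbs.Opt
import Vale.Agent.H65.SymAbs.Slab
import Vale.Agent.H65.SymAbs.Common
import Vale.Agent.H65.SymAbs.FfDyad
import Vale.Agent.H65.SymAbs.FfTop
import Vale.Agent.H65.SymAbs.Charpoly
import Vale.Agent.H65.SymAbs.FfHull
import Vale.Agent.H65.SymAbs.Resolvent

/-!
# SYMABS Part B: the optimal inscribed ellipsoid and two contact slabs

A convex body `K` symmetric about the origin contains an ellipsoid `T(ball)` and lies in two slabs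
`|⟪x, n⟫| ≤ 1`, `|⟪x, n'⟫| ≤ 1` whose normals satisfy
`‖T‖ ^ 2 ≤ 2 (‖n‖ ^ 2 ‖n'‖ ^ 2 - ⟪n, n'⟫ ^ 2) (det T) ^ 2`.

`T` maximises `|det T| / ‖T‖` among the operators sending the closed unit ball into `K`. At the
optimum the closed convex hulls of the rank one operators of the contact directions and of the
operators `(1 / 2) (1 - dyad x)`, `x` a norming direction, meet (`exists_common`); evaluating the
bilinear form `ff R`, `R = (Tᵀ T)⁻¹`, at a common point gives the pair of contact directions.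
-/

open Set Filter Topology

namespace Vale.Agent.H65.SymAbs

theorem claimB (K : Set E3) (hKconv : Convex ℝ K) (hKcomp : IsCompact K)
    (hKint : (interior K).Nonempty) (hKsym : ∀ x ∈ K, -x ∈ K) :
    ∃ T : E3 →L[ℝ] E3, T.det ≠ 0 ∧ (∀ y : E3, ‖y‖ ≤ 1 → T y ∈ K) ∧
      ∃ n n' : E3, (∀ x ∈ K, |inner ℝ x n| ≤ 1) ∧ (∀ x ∈ K, |inner ℝ x n'| ≤ 1) ∧
        ‖T‖ ^ 2 ≤ 2 * (‖n‖ ^ 2 * ‖n'‖ ^ 2 - (inner ℝ n n') ^ 2) * T.det ^ 2 := by
  obtain ⟨r, hr, hrK⟩ := smul_one_mem_feas K hKconv hKint hKsym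
  have h0 : (0 : E3) ∈ K := by
    have h := hrK 0 (by simp)
    simpa using h
  obtain ⟨T, hT, hdet, hopt⟩ := exists_opt K hKcomp r hr hrK
  have hKcl := hKcomp.isClosed
  obtain ⟨Z, hZP, hZQ⟩ := exists_common K hKconv hKcl h0 T hT hdet hopt
  obtain ⟨R, hRtop, hRdet, hRsym, hRn⟩ := resolvent T hdet
  have hTpos : 0 < ‖T‖ := by
    rw [norm_pos_iff]
    rintro rfl
    apply hdet
    simp [ContinuousLinearMap.det]
  have hCne : (contact K T).Nonempty := by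
    by_contra hne
    rw [Set.not_nonempty_iff_eq_empty] at hne
    rw [hne] at hZP
    simp at hZP
  have hTne : (top T).Nonempty := by
    by_contra hne
    rw [Set.not_nonempty_iff_eq_empty] at hne
    rw [hne] at hZQ
    simp at hZQ
  have hCcomp : IsCompact (contact K T) := by
    have hset : contact K T = Metric.sphere (0 : E3) 1 ∩ T ⁻¹' frontier K := by
      ext m
      simp [contact]
    rw [hset]
    exact (isCompact_sphere 0 1).inter_right (isClosed_frontier.preimage T.continuous)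
  have hgram_eq : ∀ p : E3 × E3, ff R (dyad p.1) (dyad p.2) =
      inner ℝ (R p.1) p.1 * inner ℝ (R p.2) p.2 - inner ℝ (R p.1) p.2 * inner ℝ (R p.2) p.1 :=
    fun p => ff_dyad R p.1 p.2
  have hcont : ContinuousOn (fun p : E3 × E3 => ff R (dyad p.1) (dyad p.2))
      (contact K T ×ˢ contact K T) := by
    have hfun : (fun p : E3 × E3 => ff R (dyad p.1) (dyad p.2)) = fun p : E3 × E3 =>
        inner ℝ (R p.1) p.1 * inner ℝ (R p.2) p.2 - inner ℝ (R p.1) p.2 * inner ℝ (R p.2) p.1 :=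
      funext hgram_eq
    rw [hfun]
    apply Continuous.continuousOn
    fun_prop
  obtain ⟨p, hp, hmax⟩ := (hCcomp.prod hCcomp).exists_isMaxOn (hCne.prod hCne) hcont
  obtain ⟨hp1, hp2⟩ := hp
  obtain ⟨n, hnT, hnK⟩ := contact_slab K hKconv hKcl hKsym T hT hdet p.1 hp1
  obtain ⟨n', hn'T, hn'K⟩ := contact_slab K hKconv hKcl hKsym T hT hdet p.2 hp2
  refine ⟨T, hdet, hT, n, n', hnK, hn'K, ?_⟩
  have h11 : ‖n‖ ^ 2 = inner ℝ (R p.1) p.1 := by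
    rw [← real_inner_self_eq_norm_sq]
    exact hRn p.1 p.1 n n hnT hnT
  have h22 : ‖n'‖ ^ 2 = inner ℝ (R p.2) p.2 := by
    rw [← real_inner_self_eq_norm_sq]
    exact hRn p.2 p.2 n' n' hn'T hn'T
  have h12 : inner ℝ n n' = inner ℝ (R p.1) p.2 := hRn p.1 p.2 n n' hnT hn'T
  have hG : ‖n‖ ^ 2 * ‖n'‖ ^ 2 - (inner ℝ n n') ^ 2 = ff R (dyad p.1) (dyad p.2) := by
    rw [hgram_eq, h11, h22, h12, hRsym p.2 p.1]
    ring
  have hle : ff R Z Z ≤ ff R (dyad p.1) (dyad p.2) := by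
    apply ff_hull_le R (dyad '' contact K T) _ _ Z hZP
    rintro _ ⟨a, ha, rfl⟩ _ ⟨b, hb, rfl⟩
    exact isMaxOn_iff.1 hmax (a, b) (Set.mk_mem_prod ha hb)
  have hspos : 0 < ‖T‖ ^ 2 := by positivity
  have hge : (1 / 4 : ℝ) * ((tr R - (‖T‖ ^ 2)⁻¹) ^ 2 - tr (R * R) + ((‖T‖ ^ 2)⁻¹) ^ 2) ≤
      ff R Z Z := by
    apply ff_hull_ge R _ _ _ Z hZQ
    rintro _ ⟨x, hx, rfl⟩ _ ⟨x', hx', rfl⟩
    have hsm : ff R ((1 / 2 : ℝ) • (1 - dyad x)) ((1 / 2 : ℝ) • (1 - dyad x')) =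
        (1 / 2 : ℝ) * (1 / 2 : ℝ) * ff R (1 - dyad x) (1 - dyad x') := ff_smul R _ _ _ _
    have htp := ff_top R ((‖T‖ ^ 2)⁻¹) x x' hx.1 hx'.1 (hRtop x hx) (hRtop x' hx')
    show (1 / 4 : ℝ) * ((tr R - (‖T‖ ^ 2)⁻¹) ^ 2 - tr (R * R) + ((‖T‖ ^ 2)⁻¹) ^ 2) ≤
      ff R ((1 / 2 : ℝ) • (1 - dyad x)) ((1 / 2 : ℝ) • (1 - dyad x'))
    rw [hsm, htp]
    have hinner : (inner ℝ x x') ^ 2 ≤ 1 := by
      have h1 := abs_real_inner_le_norm x x'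
      rw [hx.1, hx'.1] at h1
      have h2 := abs_le.1 h1
      nlinarith [h2.1, h2.2]
    have hsq : 0 ≤ ((‖T‖ ^ 2)⁻¹) ^ 2 := sq_nonneg _
    nlinarith [mul_nonneg hsq (sub_nonneg.2 hinner)]
  obtain ⟨x, hx⟩ := hTne
  have hx0 : x ≠ 0 := by
    intro h
    have h1 := hx.1
    rw [h] at h1
    simp at h1
  have hchar := charpoly_three R ((‖T‖ ^ 2)⁻¹) x hx0 (hRtop x hx)
  rw [hRdet] at hchar
  have hD : 0 < T.det ^ 2 := by positivity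
  rw [hG]
  have hQ : ((tr R - (‖T‖ ^ 2)⁻¹) ^ 2 - tr (R * R) + ((‖T‖ ^ 2)⁻¹) ^ 2) * T.det ^ 2 =
      2 * ‖T‖ ^ 2 := by
    have h1 : (‖T‖ ^ 2)⁻¹ * ((tr R - (‖T‖ ^ 2)⁻¹) ^ 2 - tr (R * R) + ((‖T‖ ^ 2)⁻¹) ^ 2) *
        (‖T‖ ^ 2 * T.det ^ 2) = 2 * (T.det ^ 2)⁻¹ * (‖T‖ ^ 2 * T.det ^ 2) := by
      rw [hchar]
    have h2 : (‖T‖ ^ 2)⁻¹ * ((tr R - (‖T‖ ^ 2)⁻¹) ^ 2 - tr (R * R) + ((‖T‖ ^ 2)⁻¹) ^ 2) *
        (‖T‖ ^ 2 * T.det ^ 2) =
        ((tr R - (‖T‖ ^ 2)⁻¹) ^ 2 - tr (R * R) + ((‖T‖ ^ 2)⁻¹) ^ 2) * T.det ^ 2 := by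
      field_simp
    have h3 : 2 * (T.det ^ 2)⁻¹ * (‖T‖ ^ 2 * T.det ^ 2) = 2 * ‖T‖ ^ 2 := by
      field_simp
    rw [← h2, h1, h3]
  have hfin := le_trans hge hle
  nlinarith [mul_le_mul_of_nonneg_right hfin hD.le]

end Vale.Agent.H65.SymAbs
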