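import Vale.Agent.H65.SymAbs.Defs

/-!
# SYMABS row B6: the Danskin upper bound (abstract)

`S' = {x ∈ S | c + η ≤ g x}` is compact (closed in the compact `S`, `g` continuous on `S`) and
`f < M` pointwise on `S'` (if `f x = M` then `g x ≤ c < c + η`), so `f ≤ M - κ` on `S'` for some
`κ > 0` (`IsCompact.exists_isMaxOn`; trivial if `S'` is empty). `|g| ≤ b` on `S`
(`IsCompact.exists_bound_of_continuousOn`). For `0 < ε` and `ε * (b + |c + η| + 1) ≤ κ`:
on `S'`, `f x + ε g x ≤ M - κ + ε b ≤ M + ε (c + η)`; on `S \ S'`, `g x < c + η` and `f x ≤ M`.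
-/

open Set Filter Topology

namespace Vale.Agent.H65.SymAbs

theorem danskin {X : Type*} [TopologicalSpace X] (S : Set X) (hS : IsCompact S) (f g : X → ℝ)
    (hf : ContinuousOn f S) (hg : ContinuousOn g S) (M c η : ℝ) (hM : ∀ x ∈ S, f x ≤ M)
    (hc : ∀ x ∈ S, f x = M → g x ≤ c) (hη : 0 < η) :
    ∀ᶠ ε in 𝓝[>] (0 : ℝ), ∀ x ∈ S, f x + ε * g x ≤ M + ε * (c + η) := by
  have : CompactSpace S := isCompact_iff_compactSpace.mp hS
  have hF : Continuous (fun x : S => f x) := continuousOn_iff_continuous_domRestrict.mp hf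
  have hG : Continuous (fun x : S => g x) := continuousOn_iff_continuous_domRestrict.mp hg
  obtain ⟨b, hb⟩ := hS.exists_bound_of_continuousOn hg
  let T : Set S := {x | c + η ≤ g x}
  have hTc : IsCompact T := (isClosed_le continuous_const hG).isCompact
  rcases T.eq_empty_or_nonempty with hT | hT
  · filter_upwards [self_mem_nhdsWithin] with ε hε x hx
    have hε' : 0 < ε := hε
    have hgx : g x < c + η := by
      by_contra hcon
      have hmem : (⟨x, hx⟩ : S) ∈ T := not_lt.mp hcon
      rw [hT] at hmem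
      exact hmem
    have h1 := hM x hx
    have h2 := mul_le_mul_of_nonneg_left hgx.le hε'.le
    linarith
  · obtain ⟨x0, hx0, hmax⟩ := hTc.exists_isMaxOn hT hF.continuousOn
    have hx0T : c + η ≤ g x0 := hx0
    have hlt : f x0 < M := by
      rcases (hM x0 x0.2).lt_or_eq with h | h
      · exact h
      · have h3 := hc x0 x0.2 h
        linarith
    have hκpos : 0 < M - f x0 := by linarith
    have hKpos : 0 < |b| + |c + η| + 1 := by positivity
    have hmem : Set.Ioo 0 ((M - f x0) / (|b| + |c + η| + 1)) ∈ 𝓝[>] (0 : ℝ) :=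
      Ioo_mem_nhdsGT (div_pos hκpos hKpos)
    filter_upwards [hmem] with ε hε x hx
    have hε0 : 0 < ε := hε.1
    have hεK : ε * (|b| + |c + η| + 1) < M - f x0 := by
      have h4 := hε.2
      rwa [lt_div_iff₀ hKpos] at h4
    by_cases hxT : c + η ≤ g x
    · have h1 : f x ≤ f x0 := hmax (show (⟨x, hx⟩ : S) ∈ T from hxT)
      have h2 : g x ≤ |b| := by
        have h5 : |g x| ≤ b := by
          have h6 := hb x hx
          rwa [Real.norm_eq_abs] at h6
        exact le_trans (le_trans (le_abs_self _) h5) (le_abs_self _)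
      have h3 : ε * g x ≤ ε * |b| := mul_le_mul_of_nonneg_left h2 hε0.le
      have h4 : -(c + η) ≤ |c + η| := neg_le_abs _
      have h5 : ε * (-(c + η)) ≤ ε * |c + η| := mul_le_mul_of_nonneg_left h4 hε0.le
      have h6 : ε * (|b| + |c + η| + 1) = ε * |b| + ε * |c + η| + ε := by ring
      have h7 : ε * (-(c + η)) = -(ε * (c + η)) := by ring
      linarith
    · have hgx : g x < c + η := not_le.mp hxT
      have h1 := hM x hx
      have h2 := mul_le_mul_of_nonneg_left hgx.le hε0.le
      linarith

end Vale.Agent.H65.SymAbs
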