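import Mathlib

/-!
# The optimal inscribed ellipsoid of a centrally symmetric convex body: definitions

Operators `T` of the Euclidean three-space whose image of the closed unit ball lies in a set `K`,
the functional `|det T| / ‖T‖` (the least shadow area of the ellipsoid `T(ball)`, up to the
factor `π`), the contact directions and the directions where the operator norm is attained.
-/

open Set

namespace Vale.Agent.H65.SymAbs

/-- Euclidean three-space. -/
abbrev E3 := EuclideanSpace ℝ (Fin 3)

/-- The operators mapping the closed unit ball into `K`. -/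
def feas (K : Set E3) : Set (E3 →L[ℝ] E3) := {T | ∀ y : E3, ‖y‖ ≤ 1 → T y ∈ K}

/-- The functional to be maximised. -/
noncomputable def phi (T : E3 →L[ℝ] E3) : ℝ := |T.det| / ‖T‖

/-- The trace of an operator. -/
noncomputable def tr (G : E3 →L[ℝ] E3) : ℝ := LinearMap.trace ℝ E3 (G : E3 →ₗ[ℝ] E3)

/-- Contact directions: unit vectors sent to the boundary of `K`. -/
def contact (K : Set E3) (T : E3 →L[ℝ] E3) : Set E3 := {m | ‖m‖ = 1 ∧ T m ∈ frontier K}

/-- Directions where the operator norm is attained. -/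
def top (T : E3 →L[ℝ] E3) : Set E3 := {x | ‖x‖ = 1 ∧ ‖T x‖ = ‖T‖}

/-- The rank one operator `z ↦ ⟪a, z⟫ a`. -/
noncomputable def dyad (a : E3) : E3 →L[ℝ] E3 := InnerProductSpace.rankOne ℝ a a

/-- The bilinear expression `tr(R Z₁) tr(R Z₂) - tr(R Z₁ R Z₂)`. -/
noncomputable def ff (R Z₁ Z₂ : E3 →L[ℝ] E3) : ℝ :=
  tr (R * Z₁) * tr (R * Z₂) - tr (R * Z₁ * (R * Z₂))

end Vale.Agent.H65.SymAbs
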