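import Vale.Agent.H65.SymAbs.Defs

/-!
# SYMABS row B9: first order expansion of the determinant

`det (T * (1 + ε • G)) = det T * det (1 + ε • G)` (`ContinuousLinearMap.det` is `LinearMap.det`
of the coercion; `LinearMap.det_comp` / `map_mul`). With a basis, `LinearMap.det_toMatrix` and
`LinearMap.trace_eq_matrix_trace` reduce to `Matrix.det_one_add_smul`:
`det (1 + ε • M) = 1 + trace M * ε + p(ε) * ε ^ 2` with a polynomial `p`, bounded on `[0, 1]` by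
some `C` (continuity on a compact interval). (Or expand a `3 × 3` determinant directly with
`Matrix.det_fin_three`.) Then `|det (1 + ε • G)| ≥ det (1 + ε • G) ≥ 1 + ε tr G - C ε ^ 2` and
multiply by `|det T| ≥ 0`.
-/

open Set Filter Topology

namespace Vale.Agent.H65.SymAbs

/-- The sum of the principal `2 × 2` minors of a `3 × 3` matrix. -/
noncomputable def detperturb_c2 (M : Matrix (Fin 3) (Fin 3) ℝ) : ℝ :=
  M 0 0 * M 1 1 - M 0 1 * M 1 0 + (M 0 0 * M 2 2 - M 0 2 * M 2 0)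
    + (M 1 1 * M 2 2 - M 1 2 * M 2 1)

/-- The characteristic expansion of `det (1 + ε M)` for a `3 × 3` matrix. -/
theorem detperturb_matrix (M : Matrix (Fin 3) (Fin 3) ℝ) (ε : ℝ) :
    (1 + ε • M).det = 1 + ε * M.trace + ε ^ 2 * detperturb_c2 M + ε ^ 3 * M.det := by
  rw [Matrix.det_fin_three, Matrix.det_fin_three, Matrix.trace_fin_three]
  unfold detperturb_c2
  simp [Matrix.add_apply, Matrix.smul_apply]
  ring

/-- The determinant of `T * (1 + ε • G)` through the matrix of `G`. -/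
theorem detperturb_det (T G : E3 →L[ℝ] E3) (b : Module.Basis (Fin 3) ℝ E3) (ε : ℝ) :
    (T * (1 + ε • G)).det =
      T.det * (1 + ε • LinearMap.toMatrix b b (G : E3 →ₗ[ℝ] E3)).det := by
  have h1 : ((T * (1 + ε • G) : E3 →L[ℝ] E3) : E3 →ₗ[ℝ] E3) =
      (T : E3 →ₗ[ℝ] E3) ∘ₗ (LinearMap.id + ε • (G : E3 →ₗ[ℝ] E3)) := rfl
  show LinearMap.det ((T * (1 + ε • G) : E3 →L[ℝ] E3) : E3 →ₗ[ℝ] E3) =
    LinearMap.det (T : E3 →ₗ[ℝ] E3) * _
  rw [h1, LinearMap.det_comp, ← LinearMap.det_toMatrix b (LinearMap.id + ε • (G : E3 →ₗ[ℝ] E3)),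
    map_add, map_smul, LinearMap.toMatrix_id]

theorem det_perturb (T G : E3 →L[ℝ] E3) :
    ∃ C : ℝ, ∀ ε ∈ Icc (0 : ℝ) 1,
      |T.det| * (1 + ε * tr G - C * ε ^ 2) ≤ |(T * (1 + ε • G)).det| := by
  have b : Module.Basis (Fin 3) ℝ E3 := (EuclideanSpace.basisFun (Fin 3) ℝ).toBasis
  refine ⟨|detperturb_c2 (LinearMap.toMatrix b b (G : E3 →ₗ[ℝ] E3))|
    + |(LinearMap.toMatrix b b (G : E3 →ₗ[ℝ] E3)).det|, ?_⟩
  intro ε hε
  obtain ⟨h0, h1⟩ := hε
  have htr : tr G = (LinearMap.toMatrix b b (G : E3 →ₗ[ℝ] E3)).trace :=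
    LinearMap.trace_eq_matrix_trace ℝ b (G : E3 →ₗ[ℝ] E3)
  rw [detperturb_det T G b ε, abs_mul, htr, detperturb_matrix]
  apply mul_le_mul_of_nonneg_left _ (abs_nonneg _)
  refine le_trans ?_ (le_abs_self _)
  have a1 := neg_abs_le (detperturb_c2 (LinearMap.toMatrix b b (G : E3 →ₗ[ℝ] E3)))
  have a2 := neg_abs_le (LinearMap.toMatrix b b (G : E3 →ₗ[ℝ] E3)).det
  have a3 := abs_nonneg (LinearMap.toMatrix b b (G : E3 →ₗ[ℝ] E3)).det
  have e2 : 0 ≤ ε ^ 2 := sq_nonneg ε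
  have a4 : 0 ≤ ε * (LinearMap.toMatrix b b (G : E3 →ₗ[ℝ] E3)).det
      + |(LinearMap.toMatrix b b (G : E3 →ₗ[ℝ] E3)).det| := by nlinarith
  nlinarith [mul_nonneg e2 a4, mul_nonneg e2 (by linarith :
    (0 : ℝ) ≤ detperturb_c2 (LinearMap.toMatrix b b (G : E3 →ₗ[ℝ] E3))
      + |detperturb_c2 (LinearMap.toMatrix b b (G : E3 →ₗ[ℝ] E3))|)]

end Vale.Agent.H65.SymAbs
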