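import Vale.Agent.H65.SymAbs.XRay

/-!
# SYMABS row A4: the mass of a cylinder for the weight of an ellipsoid

With the measure preserving `Ψ = H76.splitEquiv u hu` (`Ψ x = (projection of x, ⟪x, u⟫)`,
inverse sending the pair b, t to `b + t • u`), the set is `Ψ ⁻¹' (B ×ˢ univ)` and by Tonelli
`∫⁻ x in proj ⁻¹' B, wt (‖A x‖ ^ 2) = ∫⁻ b in B, ∫⁻ t, wt (‖A (b + t • u)‖ ^ 2)`.
For fixed `b`: `‖A b + t • A u‖ ^ 2 = a (t - t0) ^ 2 + d` with `a = ‖A u‖ ^ 2 > 0`,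
`t0 = -⟪A b, A u⟫ / a`, `d = ‖A b‖ ^ 2 - ⟪A b, A u⟫ ^ 2 / a`, so by `xray_integral` the inner
integral is at most `ofReal (π / √a) = ofReal (π / ‖A u‖)`.
Model for the bookkeeping: `Vale/Agent/H9/SymCyl/EuB.lean`, `Vale/Agent/H76/Transfer.lean`.
-/

open MeasureTheory Set Module
open scoped ENNReal

namespace Vale.Agent.H65.SymAbs

open Vale.Agent.H76

theorem ellcyl_symm (u : E3) (hu : ‖u‖ = 1) (b : ↥(Submodule.span ℝ {u})ᗮ) (t : ℝ) :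
    (splitEquiv u hu).symm (b, t) = (b : E3) + t • u := by
  simp [splitEquiv]
  exact add_comm _ _

theorem ellcyl_norm_sq (A : E3 →L[ℝ] E3) (u : E3) (hAu : A u ≠ 0) (b : E3) (t : ℝ) :
    ‖A (b + t • u)‖ ^ 2 =
      ‖A u‖ ^ 2 * (t - (-(inner ℝ (A b) (A u)) / ‖A u‖ ^ 2)) ^ 2 +
        (‖A b‖ ^ 2 - (inner ℝ (A b) (A u)) ^ 2 / ‖A u‖ ^ 2) := by
  rw [map_add, map_smul]
  have h : ‖A b + t • A u‖ ^ 2 =
      ‖A b‖ ^ 2 + 2 * t * inner ℝ (A b) (A u) + t ^ 2 * ‖A u‖ ^ 2 := by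
    rw [norm_add_sq_real, inner_smul_right, norm_smul, mul_pow, Real.norm_eq_abs, sq_abs]
    ring
  rw [h]
  have ha : ‖A u‖ ≠ 0 := norm_ne_zero_iff.mpr hAu
  field_simp
  ring

theorem ellcyl_inner (A : E3 →L[ℝ] E3) (u : E3) (hu : ‖u‖ = 1) (hAu : A u ≠ 0)
    (b : ↥(Submodule.span ℝ {u})ᗮ) :
    ∫⁻ t : ℝ, wt (‖A ((splitEquiv u hu).symm (b, t))‖ ^ 2) ≤
      ENNReal.ofReal (Real.pi / ‖A u‖) := by
  have ha : 0 < ‖A u‖ ^ 2 := by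
    have : 0 < ‖A u‖ := norm_pos_iff.mpr hAu
    positivity
  have e : ∀ t : ℝ, wt (‖A ((splitEquiv u hu).symm (b, t))‖ ^ 2) =
      wt (‖A u‖ ^ 2 * (t - (-(inner ℝ (A (b : E3)) (A u)) / ‖A u‖ ^ 2)) ^ 2 +
        (‖A (b : E3)‖ ^ 2 - (inner ℝ (A (b : E3)) (A u)) ^ 2 / ‖A u‖ ^ 2)) := by
    intro t
    rw [ellcyl_symm, ellcyl_norm_sq A u hAu]
  rw [lintegral_congr e, xray_integral _ _ _ ha]
  split_ifs
  · rw [Real.sqrt_sq (norm_nonneg _)]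
  · exact bot_le

theorem ellipsoid_cylinder (A : E3 →L[ℝ] E3) (u : E3) (hu : ‖u‖ = 1) (hAu : A u ≠ 0)
    (B : Set ↥(Submodule.span ℝ {u})ᗮ) (hB : MeasurableSet B) :
    ∫⁻ x in (Submodule.span ℝ {u})ᗮ.orthogonalProjectionOnto ⁻¹' B, wt (‖A x‖ ^ 2) ≤
      ENNReal.ofReal (Real.pi / ‖A u‖) * volume B := by
  have hmp := splitEquiv_measurePreserving u hu
  have hemb : MeasurableEmbedding (splitEquiv u hu) :=
    (splitEquiv u hu).toHomeomorph.measurableEmbedding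
  have hpre : (Submodule.span ℝ {u})ᗮ.orthogonalProjectionOnto ⁻¹' B =
      (splitEquiv u hu) ⁻¹' (B ×ˢ (univ : Set ℝ)) := by
    ext x
    simp only [mem_preimage, mem_prod, mem_univ, and_true]
    rw [splitEquiv_fst]
  have h1 : ∫⁻ x in (Submodule.span ℝ {u})ᗮ.orthogonalProjectionOnto ⁻¹' B, wt (‖A x‖ ^ 2) =
      ∫⁻ p in B ×ˢ (univ : Set ℝ), wt (‖A ((splitEquiv u hu).symm p)‖ ^ 2)
        ∂(volume.prod volume) := by
    rw [hpre, ← hmp.setLIntegral_comp_preimage_emb hemb]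
    simp
  rw [h1, ← Measure.prod_restrict, Measure.restrict_univ]
  calc ∫⁻ p, wt (‖A ((splitEquiv u hu).symm p)‖ ^ 2) ∂((volume.restrict B).prod volume)
      ≤ ∫⁻ b in B, ∫⁻ t : ℝ, wt (‖A ((splitEquiv u hu).symm (b, t))‖ ^ 2) :=
        lintegral_prod_le _
    _ ≤ ∫⁻ _ in B, ENNReal.ofReal (Real.pi / ‖A u‖) :=
        lintegral_mono (fun b => ellcyl_inner A u hu hAu b)
    _ = ENNReal.ofReal (Real.pi / ‖A u‖) * volume B := by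
        rw [setLIntegral_const]

end Vale.Agent.H65.SymAbs
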