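import Vale.Agent.H65.SymAbs.EllMass
import Vale.Agent.H65.SymAbs.EllCyl

/-!
# SYMABS row A5: cylinders covering an ellipsoid

`T` is invertible; let `A` be its inverse (`A * T = 1`, `T * A = 1`). The weight
`x ↦ wt (‖A x‖ ^ 2)` vanishes outside `T '' ball 0 1 = {x | ‖A x‖ < 1}`, so by `ellipsoid_mass`
`ofReal (|det T| π ^ 2) = ∫⁻ x in T '' ball 0 1, wt (‖A x‖ ^ 2)`. The image of the ball is covered
by the sets `proj_i ⁻¹' (toMeasurable volume (Subtype.val ⁻¹' B i))` (`H76.proj_mem_of_cyl`), so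
by `lintegral_mono_set`, `lintegral_iUnion_le`-type subadditivity and `ellipsoid_cylinder`
the mass is at most `∑ i, ofReal (π / ‖A (u i)‖) * volume (Subtype.val ⁻¹' B i)`
(`measure_toMeasurable`), and `volume (Subtype.val ⁻¹' B i) = μHE[2] (B i)` (`H76.hausdorff_base`).
Finally `1 = ‖T (A u)‖ ≤ ‖T‖ ‖A u‖` gives `π / ‖A u‖ ≤ π ‖T‖`, so
`|det T| π ^ 2 ≤ π ‖T‖ ∑ i, μHE[2] (B i)`; divide by `π ‖T‖ > 0` (if the sum is `⊤` there is
nothing to prove).
-/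

open MeasureTheory Set Module
open scoped ENNReal

namespace Vale.Agent.H65.SymAbs

open Vale.Agent.H76

theorem ellipsoid_covering (m : ℕ) (T : E3 →L[ℝ] E3) (hdet : T.det ≠ 0)
    (u : Fin m → E3) (hu : ∀ i, ‖u i‖ = 1) (B : Fin m → Set E3)
    (hB : ∀ i, ∀ x ∈ B i, inner ℝ x (u i) = 0)
    (hcov : T '' Metric.ball 0 1 ⊆ ⋃ i, {x | ∃ b ∈ B i, ∃ t : ℝ, x = b + t • u i}) :
    ENNReal.ofReal (Real.pi * |T.det| / ‖T‖) ≤ ∑ i, μHE[2] (B i) := by
  by_cases hT0 : ‖T‖ = 0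
  · rw [hT0, div_zero, ENNReal.ofReal_zero]
    exact bot_le
  have hTpos : 0 < ‖T‖ := lt_of_le_of_ne (norm_nonneg _) (Ne.symm hT0)
  have hE : finrank ℝ E3 = 3 := by simp
  obtain ⟨A, hATx, hTAx⟩ : ∃ A : E3 →L[ℝ] E3, (∀ x, A (T x) = x) ∧ ∀ x, T (A x) = x :=
    ⟨((T.toContinuousLinearEquivOfDetNeZero hdet).symm : E3 →L[ℝ] E3),
      fun x => (T.toContinuousLinearEquivOfDetNeZero hdet).symm_apply_apply x,
      fun x => (T.toContinuousLinearEquivOfDetNeZero hdet).apply_symm_apply x⟩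
  have hAT : A * T = 1 := ContinuousLinearMap.ext fun x => hATx x
  have hTA : T * A = 1 := ContinuousLinearMap.ext fun x => hTAx x
  have hAu : ∀ i, A (u i) ≠ 0 := by
    intro i h
    have h1 := hTAx (u i)
    rw [h, map_zero] at h1
    have h2 := hu i
    rw [← h1, norm_zero] at h2
    exact zero_ne_one h2
  have hAub : ∀ i, Real.pi / ‖A (u i)‖ ≤ Real.pi * ‖T‖ := by
    intro i
    have hpos : 0 < ‖A (u i)‖ := norm_pos_iff.mpr (hAu i)
    have h1 : 1 ≤ ‖T‖ * ‖A (u i)‖ := by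
      calc (1 : ℝ) = ‖T (A (u i))‖ := by rw [hTAx, hu i]
        _ ≤ ‖T‖ * ‖A (u i)‖ := T.le_opNorm _
    rw [div_le_iff₀ hpos]
    nlinarith [Real.pi_pos]
  have hB'm : ∀ i, MeasurableSet (toMeasurable volume
      (Subtype.val ⁻¹' B i : Set ↥(Submodule.span ℝ {u i})ᗮ)) :=
    fun i => measurableSet_toMeasurable _ _
  have hB'v : ∀ i, volume (toMeasurable volume
      (Subtype.val ⁻¹' B i : Set ↥(Submodule.span ℝ {u i})ᗮ)) = μHE[2] (B i) := fun i => by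
    rw [hausdorff_base hE (u i) (hu i) (B i) (hB i)]
    exact measure_toMeasurable _
  have hsub : T '' Metric.ball 0 1 ⊆ ⋃ i, (Submodule.span ℝ {u i})ᗮ.orthogonalProjectionOnto ⁻¹'
      (toMeasurable volume (Subtype.val ⁻¹' B i : Set ↥(Submodule.span ℝ {u i})ᗮ)) := by
    intro x hx
    obtain ⟨i, hi⟩ := mem_iUnion.1 (hcov hx)
    exact mem_iUnion.2 ⟨i, subset_toMeasurable _ _
      (proj_mem_of_cyl (u i) (hu i) (B i) (hB i) x hi)⟩
  have hsupp : ∀ x, x ∉ T '' Metric.ball 0 1 → wt (‖A x‖ ^ 2) = 0 := by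
    intro x hx
    apply wt_of_le
    by_contra hlt
    push Not at hlt
    apply hx
    refine ⟨A x, ?_, hTAx x⟩
    rw [mem_ball_zero_iff]
    nlinarith [norm_nonneg (A x)]
  have h1 : ∫⁻ x : E3, wt (‖A x‖ ^ 2)
      ≤ ∫⁻ x in ⋃ i, (Submodule.span ℝ {u i})ᗮ.orthogonalProjectionOnto ⁻¹'
          (toMeasurable volume (Subtype.val ⁻¹' B i : Set ↥(Submodule.span ℝ {u i})ᗮ)),
        wt (‖A x‖ ^ 2) := by
    refine le_of_eq (setLIntegral_eq_of_support_subset ?_).symm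
    intro x hx
    by_contra hxU
    exact hx (hsupp x fun hxS => hxU (hsub hxS))
  have h2 : ∫⁻ x in ⋃ i, (Submodule.span ℝ {u i})ᗮ.orthogonalProjectionOnto ⁻¹'
          (toMeasurable volume (Subtype.val ⁻¹' B i : Set ↥(Submodule.span ℝ {u i})ᗮ)),
        wt (‖A x‖ ^ 2)
      ≤ ∑ i, ∫⁻ x in (Submodule.span ℝ {u i})ᗮ.orthogonalProjectionOnto ⁻¹'
          (toMeasurable volume (Subtype.val ⁻¹' B i : Set ↥(Submodule.span ℝ {u i})ᗮ)),
        wt (‖A x‖ ^ 2) := by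
    have h := lintegral_iUnion_le (μ := (volume : Measure E3))
      (fun i => (Submodule.span ℝ {u i})ᗮ.orthogonalProjectionOnto ⁻¹'
        (toMeasurable volume (Subtype.val ⁻¹' B i : Set ↥(Submodule.span ℝ {u i})ᗮ)))
      (fun x => wt (‖A x‖ ^ 2))
    rwa [tsum_fintype] at h
  have h3 : ∀ i, ∫⁻ x in (Submodule.span ℝ {u i})ᗮ.orthogonalProjectionOnto ⁻¹'
          (toMeasurable volume (Subtype.val ⁻¹' B i : Set ↥(Submodule.span ℝ {u i})ᗮ)),
        wt (‖A x‖ ^ 2) ≤ ENNReal.ofReal (Real.pi * ‖T‖) * μHE[2] (B i) := by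
    intro i
    refine (ellipsoid_cylinder A (u i) (hu i) (hAu i) _ (hB'm i)).trans ?_
    rw [hB'v i]
    gcongr
    exact hAub i
  have h4 : ENNReal.ofReal (|T.det| * Real.pi ^ 2)
      ≤ ENNReal.ofReal (Real.pi * ‖T‖) * ∑ i, μHE[2] (B i) := by
    rw [← ellipsoid_mass T A hAT hTA, Finset.mul_sum]
    exact h1.trans (h2.trans (Finset.sum_le_sum fun i _ => h3 i))
  have hpos : 0 < Real.pi * ‖T‖ := mul_pos Real.pi_pos hTpos
  have e : Real.pi * |T.det| / ‖T‖ = |T.det| * Real.pi ^ 2 / (Real.pi * ‖T‖) := by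
    field_simp
  rw [e, ENNReal.ofReal_div_of_pos hpos]
  exact ENNReal.div_le_of_le_mul' h4

end Vale.Agent.H65.SymAbs
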