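import Vale.Agent.H65.SymAbs.BallMass

/-!
# SYMABS row A3: the total mass of the weight of an ellipsoid

`A` is the inverse of `T`. `Measure.map A volume = ofReal |(det A)⁻¹| • volume`
(`MeasureTheory.Measure.map_linearMap_addHaar_eq_smul_addHaar`, `det A ≠ 0`), so
`∫⁻ x, wt (‖A x‖ ^ 2) = ∫⁻ y, wt (‖y‖ ^ 2) ∂(map A volume) = ofReal |det T| * ∫⁻ y, wt (‖y‖ ^ 2)`
(`lintegral_map` with `measurable_wt`, `det A * det T = 1`), then `ball_mass`.
-/

open MeasureTheory Set Module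
open scoped ENNReal

namespace Vale.Agent.H65.SymAbs

open Vale.Agent.H76

theorem ellipsoid_mass (T A : E3 →L[ℝ] E3) (hAT : A * T = 1) (hTA : T * A = 1) :
    ∫⁻ x : E3, wt (‖A x‖ ^ 2) = ENNReal.ofReal (|T.det| * Real.pi ^ 2) := by
  have hdet : LinearMap.det (A : E3 →ₗ[ℝ] E3) * LinearMap.det (T : E3 →ₗ[ℝ] E3) = 1 := by
    rw [← LinearMap.det_comp]
    have h1 : (A : E3 →ₗ[ℝ] E3) ∘ₗ (T : E3 →ₗ[ℝ] E3) = LinearMap.id := by
      ext1 x
      have h2 := congrArg (fun S : E3 →L[ℝ] E3 => S x) hAT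
      simpa using h2
    rw [h1, LinearMap.det_id]
  have hA0 : LinearMap.det (A : E3 →ₗ[ℝ] E3) ≠ 0 := left_ne_zero_of_mul_eq_one hdet
  have hinv : (LinearMap.det (A : E3 →ₗ[ℝ] E3))⁻¹ = LinearMap.det (T : E3 →ₗ[ℝ] E3) :=
    inv_eq_of_mul_eq_one_right hdet
  have hmap : Measure.map (A : E3 →ₗ[ℝ] E3) (volume : Measure E3)
      = ENNReal.ofReal |(LinearMap.det (A : E3 →ₗ[ℝ] E3))⁻¹| • (volume : Measure E3) :=
    Measure.map_linearMap_addHaar_eq_smul_addHaar volume hA0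
  have hmeas : Measurable (fun y : E3 => wt (‖y‖ ^ 2)) :=
    measurable_wt.comp (measurable_norm.pow_const 2)
  have hAm : Measurable (fun x : E3 => (A : E3 →ₗ[ℝ] E3) x) := A.continuous.measurable
  calc ∫⁻ x : E3, wt (‖A x‖ ^ 2)
      = ∫⁻ y : E3, wt (‖y‖ ^ 2) ∂(Measure.map (A : E3 →ₗ[ℝ] E3) volume) :=
        (lintegral_map hmeas hAm).symm
    _ = ENNReal.ofReal |T.det| * ∫⁻ y : E3, wt (‖y‖ ^ 2) := by
        rw [hmap, lintegral_smul_measure, hinv, smul_eq_mul]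
    _ = ENNReal.ofReal (|T.det| * Real.pi ^ 2) := by
        rw [ball_mass, ← ENNReal.ofReal_mul (abs_nonneg _)]

end Vale.Agent.H65.SymAbs
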