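import Vale.Agent.H65.SymAbs.Defs

/-!
# SYMABS row B1: the feasible set of operators

`feas K = {T | T(closed unit ball) ⊆ K}`.

* `feas_compact`: closed (intersection over `y` of preimages of the closed set `K` under the
  continuous evaluation `T ↦ T y`) and bounded (`K ⊆ closedBall 0 ρ` gives `‖T‖ ≤ ρ`), in the
  proper space of operators.
* `smul_one_mem_feas`: a symmetric convex set with an interior point `p` contains a ball around
  `0` (midpoints of `p + v` and `-(p - v)`); take half its radius.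
-/

open Set Filter Topology

namespace Vale.Agent.H65.SymAbs

theorem feas_isClosed_aux (K : Set E3) (hK : IsClosed K) : IsClosed (feas K) := by
  have h : feas K = ⋂ y ∈ {y : E3 | ‖y‖ ≤ 1}, (fun T : E3 →L[ℝ] E3 => T y) ⁻¹' K := by
    ext T
    simp [feas]
  rw [h]
  refine isClosed_biInter fun y _ => ?_
  exact hK.preimage (ContinuousLinearMap.apply ℝ E3 y).continuous

theorem feas_compact (K : Set E3) (hK : IsCompact K) : IsCompact (feas K) := by
  obtain ⟨ρ, hρ⟩ := hK.isBounded.subset_closedBall (0 : E3)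
  have hbd : feas K ⊆ Metric.closedBall (0 : E3 →L[ℝ] E3) (max ρ 0) := by
    intro T hT
    rw [mem_closedBall_zero_iff]
    refine ContinuousLinearMap.opNorm_le_of_unit_norm (le_max_right ρ 0) ?_
    intro x hx
    have h1 : T x ∈ K := hT x (le_of_eq hx)
    have h2 := hρ h1
    rw [mem_closedBall_zero_iff] at h2
    exact le_trans h2 (le_max_left ρ 0)
  exact Metric.isCompact_of_isClosed_isBounded (feas_isClosed_aux K hK.isClosed)
    (Metric.isBounded_closedBall.subset hbd)

theorem smul_one_mem_feas (K : Set E3) (hKconv : Convex ℝ K) (hKint : (interior K).Nonempty)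
    (hKsym : ∀ x ∈ K, -x ∈ K) : ∃ r : ℝ, 0 < r ∧ (r • (1 : E3 →L[ℝ] E3)) ∈ feas K := by
  obtain ⟨p, hp⟩ := hKint
  rw [mem_interior_iff_mem_nhds, Metric.mem_nhds_iff] at hp
  obtain ⟨ε, hε, hball⟩ := hp
  refine ⟨ε / 2, by positivity, ?_⟩
  intro y hy
  have hv : ‖(ε / 2) • y‖ < ε := by
    rw [norm_smul, Real.norm_of_nonneg (by positivity)]
    nlinarith [norm_nonneg y]
  have h1 : p + (ε / 2) • y ∈ K := by
    apply hball
    rw [Metric.mem_ball, dist_eq_norm]
    simpa using hv
  have h2 : p - (ε / 2) • y ∈ K := by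
    apply hball
    rw [Metric.mem_ball, dist_eq_norm]
    simpa using hv
  have h3 : -(p - (ε / 2) • y) ∈ K := hKsym _ h2
  have h4 : (1 / 2 : ℝ) • (p + (ε / 2) • y) + (1 / 2 : ℝ) • (-(p - (ε / 2) • y)) ∈ K :=
    hKconv h1 h3 (by norm_num) (by norm_num) (by norm_num)
  have e : (1 / 2 : ℝ) • (p + (ε / 2) • y) + (1 / 2 : ℝ) • (-(p - (ε / 2) • y))
      = (ε / 2) • y := by
    module
  rw [e] at h4
  simpa using h4

end Vale.Agent.H65.SymAbs
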