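import Vale.Agent.H65.SymAbs.Origin

/-!
# SYMABS row D2: the half-area inequality for centrally symmetric convex bodies (any centre)

Apply `symabs_origin` to `K' = (fun x => x - c) '' K` and the bases
`B' i = (fun b => b - (c - inner ℝ c (u i) • u i)) '' B i`, exactly as in
`Vale/Agent/H9/SymCyl/EuE.lean` (`sym_cylinders`): `K'` is compact, convex, with nonempty interior,
symmetric about the origin; the translated bases are orthogonal to `u i` and cover `K'`;
`μHE[2] (B' i) = μHE[2] (B i)` and, for every unit `v`, the shadow of `K'` along `v` is the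
translate by `-(c - ⟪c, v⟫ • v)` of the shadow of `K`
(`Isometry.euclideanHausdorffMeasure_image`), so the two infima agree.
-/

open MeasureTheory Set Module
open scoped ENNReal

namespace Vale.Agent.H65.SymAbs

open Vale.Agent.H76

theorem symabs_final (m : ℕ)
    (K : Set E3) (hKconv : Convex ℝ K) (hKcomp : IsCompact K)
    (hKint : (interior K).Nonempty)
    (c : E3) (hKsym : ∀ x ∈ K, (2 : ℝ) • c - x ∈ K)
    (u : Fin m → E3) (hu : ∀ i, ‖u i‖ = 1) (B : Fin m → Set E3)
    (hB : ∀ i, ∀ x ∈ B i, inner ℝ x (u i) = 0)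
    (hcov : K ⊆ ⋃ i, {x | ∃ b ∈ B i, ∃ t : ℝ, x = b + t • u i}) :
    (27 / 50 : ℝ≥0∞) *
        (⨅ v : E3, ⨅ _ : ‖v‖ = 1, μHE[2] ((fun x => x - inner ℝ x v • v) '' K)) ≤
      ∑ i, μHE[2] (B i) := by
  have huu : ∀ i, inner ℝ (u i) (u i) = (1 : ℝ) := fun i => by
    rw [real_inner_self_eq_norm_sq, hu i]
    norm_num
  have hiso : ∀ w : E3, Isometry (fun b : E3 => b - w) := fun w =>
    Isometry.of_dist_eq (fun x y => dist_sub_right x y w)
  have hfun : (fun x : E3 => x - c) = (fun z => -c + z) := by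
    funext z
    abel
  have hconv' : Convex ℝ ((fun x : E3 => x - c) '' K) := by
    rw [hfun]
    exact hKconv.translate (-c)
  have hcomp' : IsCompact ((fun x : E3 => x - c) '' K) :=
    hKcomp.image (continuous_id.sub continuous_const)
  have hint' : (interior ((fun x : E3 => x - c) '' K)).Nonempty := by
    obtain ⟨x, hx⟩ := hKint
    refine ⟨x - c, ?_⟩
    have h1 := (Homeomorph.subRight c).image_interior K
    have h2 : x - c ∈ (Homeomorph.subRight c) '' interior K := ⟨x, hx, rfl⟩
    rw [h1] at h2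
    exact h2
  have hsym' : ∀ x ∈ (fun x : E3 => x - c) '' K, -x ∈ (fun x : E3 => x - c) '' K := by
    rintro x ⟨y, hy, rfl⟩
    refine ⟨(2 : ℝ) • c - y, hKsym y hy, ?_⟩
    simp only [two_smul]
    abel
  have hB' : ∀ i, ∀ x ∈ (fun b : E3 => b - (c - inner ℝ c (u i) • u i)) '' B i,
      inner ℝ x (u i) = 0 := by
    rintro i x ⟨b, hb, rfl⟩
    simp only [inner_sub_left, inner_smul_left, hB i b hb, huu i]
    simp
  have hcov' : (fun x : E3 => x - c) '' K ⊆
      ⋃ i, {x | ∃ b ∈ (fun b : E3 => b - (c - inner ℝ c (u i) • u i)) '' B i,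
        ∃ t : ℝ, x = b + t • u i} := by
    rintro x ⟨y, hy, rfl⟩
    obtain ⟨i, b, hb, t, rfl⟩ := mem_iUnion.1 (hcov hy)
    refine mem_iUnion.2 ⟨i, b - (c - inner ℝ c (u i) • u i), ⟨b, hb, rfl⟩,
      t - inner ℝ c (u i), ?_⟩
    simp only [sub_smul]
    abel
  have key := symabs_origin m ((fun x : E3 => x - c) '' K) hconv' hcomp' hint' hsym' u hu
    (fun i => (fun b : E3 => b - (c - inner ℝ c (u i) • u i)) '' B i) hB' hcov'
  have hsum : ∑ i, μHE[2] ((fun b : E3 => b - (c - inner ℝ c (u i) • u i)) '' B i)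
      = ∑ i, μHE[2] (B i) :=
    Finset.sum_congr rfl (fun i _ => (hiso _).euclideanHausdorffMeasure_image _)
  have hinf : (⨅ v : E3, ⨅ _ : ‖v‖ = 1,
        μHE[2] ((fun x : E3 => x - inner ℝ x v • v) '' ((fun x : E3 => x - c) '' K)))
      = ⨅ v : E3, ⨅ _ : ‖v‖ = 1, μHE[2] ((fun x : E3 => x - inner ℝ x v • v) '' K) := by
    refine iInf_congr (fun v => iInf_congr (fun _ => ?_))
    have h2 : (fun x : E3 => x - inner ℝ x v • v) '' ((fun x : E3 => x - c) '' K)
        = (fun z : E3 => z - (c - inner ℝ c v • v)) ''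
          ((fun x : E3 => x - inner ℝ x v • v) '' K) := by
      rw [Set.image_image, Set.image_image]
      apply Set.image_congr
      intro y _
      rw [inner_sub_left, sub_smul]
      abel
    rw [h2, (hiso _).euclideanHausdorffMeasure_image]
  rw [hsum, hinf] at key
  exact key

end Vale.Agent.H65.SymAbs
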