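import Vale.Agent.H65.SymAbs.NormPerturb
import Vale.Agent.H65.SymAbs.DetPerturb

/-!
# SYMABS row B10: strict improvement of `phi`

Hypothesis: `δ ≤ tr G - ⟪G x, x⟫` on `top T`, i.e. `⟪G x, x⟫ ≤ tr G - δ` there.
`norm_perturb` with `c = tr G - δ`, `η = δ / 2`:
`‖T_ε‖ ^ 2 ≤ ‖T‖ ^ 2 (1 + 2 ε (tr G - δ / 2) + ε ^ 2 ‖G‖ ^ 2)` eventually, and `det_perturb`:
`|det T_ε| ≥ |det T| (1 + ε tr G - C ε ^ 2)` for `ε ∈ [0, 1]`. For small `ε > 0`: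
`1 + ε tr G - C ε ^ 2 > 0` and
`(1 + ε tr G - C ε ^ 2) ^ 2 > 1 + 2 ε (tr G - δ / 2) + ε ^ 2 ‖G‖ ^ 2` (the difference is
`ε δ + O(ε ^ 2)`). Hence `|det T_ε| ^ 2 * ‖T‖ ^ 2 > |det T| ^ 2 * ‖T_ε‖ ^ 2`, with `‖T‖ > 0` and
`‖T_ε‖ > 0` (nonzero determinants), which gives `|det T| / ‖T‖ < |det T_ε| / ‖T_ε‖`.
-/

open Set Filter Topology

namespace Vale.Agent.H65.SymAbs

/-- An operator with nonzero determinant has positive norm. -/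
theorem phiperturb_norm_pos (A : E3 →L[ℝ] E3) (h : A.det ≠ 0) : 0 < ‖A‖ := by
  rw [norm_pos_iff]
  rintro rfl
  apply h
  have e : (0 : E3 →L[ℝ] E3).det = LinearMap.det (0 : E3 →ₗ[ℝ] E3) := rfl
  rw [e, LinearMap.det_zero]
  simp

/-- The elementary real inequalities behind `phi_perturb`. -/
theorem phiperturb_real (t g C δ ε : ℝ) (hε0 : 0 < ε) (hε1 : ε ≤ 1)
    (h2 : ε * (|t ^ 2 - 2 * C - g ^ 2| + 2 * |C| * |t| + 1) < δ)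
    (h3 : ε * (|t| + |C| + 1) < 1) :
    0 < 1 + ε * t - C * ε ^ 2 ∧
      1 + 2 * ε * (t - δ + δ / 2) + ε ^ 2 * g ^ 2 < (1 + ε * t - C * ε ^ 2) ^ 2 := by
  have hsq : ε ^ 2 ≤ ε := by nlinarith
  have hcu : ε ^ 3 ≤ ε ^ 2 := by nlinarith [sq_nonneg ε]
  have hε2 : 0 ≤ ε ^ 2 := sq_nonneg ε
  constructor
  · have a1 : -|t| ≤ t := neg_abs_le t
    have a2 : C ≤ |C| := le_abs_self C
    have a3 : C * ε ^ 2 ≤ |C| * ε := by
      calc C * ε ^ 2 ≤ |C| * ε ^ 2 := mul_le_mul_of_nonneg_right a2 hε2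
        _ ≤ |C| * ε := mul_le_mul_of_nonneg_left hsq (abs_nonneg _)
    have a4 : ε * (-|t|) ≤ ε * t := mul_le_mul_of_nonneg_left a1 hε0.le
    have a5 : ε * (|t| + |C| + 1) = ε * |t| + |C| * ε + ε := by ring
    have a6 : ε * (-|t|) = -(ε * |t|) := by ring
    linarith
  · have e : (1 + ε * t - C * ε ^ 2) ^ 2 - (1 + 2 * ε * (t - δ + δ / 2) + ε ^ 2 * g ^ 2)
        = ε * δ + ε ^ 2 * (t ^ 2 - 2 * C - g ^ 2) - 2 * (C * t) * ε ^ 3 + C ^ 2 * ε ^ 4 := by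
      ring
    have b1 : -|t ^ 2 - 2 * C - g ^ 2| ≤ t ^ 2 - 2 * C - g ^ 2 := neg_abs_le _
    have b2 : C * t ≤ |C| * |t| := by
      rw [← abs_mul]
      exact le_abs_self _
    have b3 : 0 ≤ |C| * |t| := by positivity
    have b4 : 0 ≤ C ^ 2 * ε ^ 4 := by positivity
    have b5 : ε ^ 2 * (-|t ^ 2 - 2 * C - g ^ 2|) ≤ ε ^ 2 * (t ^ 2 - 2 * C - g ^ 2) :=
      mul_le_mul_of_nonneg_left b1 hε2
    have b6 : 2 * (C * t) * ε ^ 3 ≤ 2 * (|C| * |t|) * ε ^ 2 := by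
      calc 2 * (C * t) * ε ^ 3 ≤ 2 * (|C| * |t|) * ε ^ 3 := by
            apply mul_le_mul_of_nonneg_right _ (by positivity)
            linarith
        _ ≤ 2 * (|C| * |t|) * ε ^ 2 := mul_le_mul_of_nonneg_left hcu (by positivity)
    have b7 : ε * (ε * (|t ^ 2 - 2 * C - g ^ 2| + 2 * |C| * |t| + 1)) < ε * δ :=
      mul_lt_mul_of_pos_left h2 hε0
    have b8 : ε * (ε * (|t ^ 2 - 2 * C - g ^ 2| + 2 * |C| * |t| + 1))
        = ε ^ 2 * |t ^ 2 - 2 * C - g ^ 2| + 2 * (|C| * |t|) * ε ^ 2 + ε ^ 2 := by ring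
    have b9 : ε ^ 2 * (-|t ^ 2 - 2 * C - g ^ 2|) = -(ε ^ 2 * |t ^ 2 - 2 * C - g ^ 2|) := by ring
    linarith

/-- The final comparison of two quotients. -/
theorem phiperturb_final (a N d n u v : ℝ) (ha : 0 < a) (hN : 0 < N) (hn : 0 < n) (hu : 0 < u)
    (hd : a * u ≤ d) (hnv : n ^ 2 ≤ N ^ 2 * v) (huv : v < u ^ 2) : a / N < d / n := by
  rw [div_lt_div_iff₀ hN hn]
  have hd0 : 0 < d := lt_of_lt_of_le (mul_pos ha hu) hd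
  apply lt_of_pow_lt_pow_left₀ 2 (by positivity)
  have h1 : (a * n) ^ 2 ≤ a ^ 2 * (N ^ 2 * v) := by
    rw [mul_pow]
    exact mul_le_mul_of_nonneg_left hnv (sq_nonneg a)
  have h2 : a ^ 2 * (N ^ 2 * v) < a ^ 2 * (N ^ 2 * u ^ 2) := by
    apply mul_lt_mul_of_pos_left _ (by positivity)
    exact mul_lt_mul_of_pos_left huv (by positivity)
  have h3 : (a * u) ^ 2 ≤ d ^ 2 := pow_le_pow_left₀ (by positivity) hd 2
  have h4 : a ^ 2 * (N ^ 2 * u ^ 2) = (a * u) ^ 2 * N ^ 2 := by ring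
  have h5 : (a * u) ^ 2 * N ^ 2 ≤ d ^ 2 * N ^ 2 := mul_le_mul_of_nonneg_right h3 (sq_nonneg N)
  calc (a * n) ^ 2 ≤ a ^ 2 * (N ^ 2 * v) := h1
    _ < a ^ 2 * (N ^ 2 * u ^ 2) := h2
    _ = (a * u) ^ 2 * N ^ 2 := h4
    _ ≤ d ^ 2 * N ^ 2 := h5
    _ = (d * N) ^ 2 := by ring

theorem phi_perturb (T G : E3 →L[ℝ] E3) (hdet : T.det ≠ 0) (δ : ℝ) (hδ : 0 < δ)
    (hG : ∀ x ∈ top T, δ ≤ tr G - inner ℝ (G x) x) :
    ∀ᶠ ε in 𝓝[>] (0 : ℝ), phi T < phi (T * (1 + ε • G)) := by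
  obtain ⟨C, hC⟩ := det_perturb T G
  have hnp := norm_perturb T G (tr G - δ) (δ / 2) (by linarith)
    (fun x hx => by
      have h := hG x hx
      linarith)
  have ha : 0 < |T.det| := abs_pos.mpr hdet
  have hN : 0 < ‖T‖ := phiperturb_norm_pos T hdet
  have hK1 : 0 < |tr G ^ 2 - 2 * C - ‖G‖ ^ 2| + 2 * |C| * |tr G| + 1 := by positivity
  have hK2 : 0 < |tr G| + |C| + 1 := by positivity
  have hε0pos : 0 < min 1 (min (δ / (|tr G ^ 2 - 2 * C - ‖G‖ ^ 2| + 2 * |C| * |tr G| + 1))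
      (1 / (|tr G| + |C| + 1))) :=
    lt_min one_pos (lt_min (div_pos hδ hK1) (div_pos one_pos hK2))
  filter_upwards [hnp, Ioo_mem_nhdsGT hε0pos] with ε hnorm hε
  have hεpos : 0 < ε := hε.1
  have hε1 : ε ≤ 1 := le_trans hε.2.le (min_le_left _ _)
  have hε2 : ε < δ / (|tr G ^ 2 - 2 * C - ‖G‖ ^ 2| + 2 * |C| * |tr G| + 1) :=
    lt_of_lt_of_le hε.2 (le_trans (min_le_right _ _) (min_le_left _ _))
  have hε3 : ε < 1 / (|tr G| + |C| + 1) :=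
    lt_of_lt_of_le hε.2 (le_trans (min_le_right _ _) (min_le_right _ _))
  rw [lt_div_iff₀ hK1] at hε2
  rw [lt_div_iff₀ hK2] at hε3
  obtain ⟨hupos, huv⟩ := phiperturb_real (tr G) ‖G‖ C δ ε hεpos hε1 hε2 hε3
  have hdetε := hC ε ⟨hεpos.le, hε1⟩
  have hd0 : 0 < |(T * (1 + ε • G)).det| := lt_of_lt_of_le (mul_pos ha hupos) hdetε
  have hn : 0 < ‖T * (1 + ε • G)‖ := phiperturb_norm_pos _ (abs_pos.mp hd0)
  exact phiperturb_final |T.det| ‖T‖ |(T * (1 + ε • G)).det| ‖T * (1 + ε • G)‖ _ _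
    ha hN hn hupos hdetε hnorm huv

end Vale.Agent.H65.SymAbs
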