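import Vale.Agent.H65.SymAbs.Perturb
import Vale.Agent.H65.SymAbs.PhiPerturb

/-!
# SYMABS row B11: no improving direction at the optimum

`feas_perturb` and `phi_perturb` hold eventually in `𝓝[>] 0`, which is a nontrivial filter; an
`ε` with both properties contradicts `hopt`.
-/

open Set Filter Topology

namespace Vale.Agent.H65.SymAbs

theorem no_direction (K : Set E3) (hKconv : Convex ℝ K) (hKcl : IsClosed K) (h0 : (0 : E3) ∈ K)
    (T : E3 →L[ℝ] E3) (hT : T ∈ feas K) (hdet : T.det ≠ 0)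
    (hopt : ∀ T' ∈ feas K, phi T' ≤ phi T) (G : E3 →L[ℝ] E3) (δ : ℝ) (hδ : 0 < δ)
    (hG1 : ∀ m ∈ contact K T, inner ℝ (G m) m ≤ -δ)
    (hG2 : ∀ x ∈ top T, δ ≤ tr G - inner ℝ (G x) x) : False := by
  have h1 := feas_perturb K hKconv hKcl h0 T hT G δ hδ hG1
  have h2 := phi_perturb T G hdet δ hδ hG2
  obtain ⟨ε, hε1, hε2⟩ := (h1.and h2).exists
  exact absurd (hopt _ hε1) (not_le.mpr hε2)

end Vale.Agent.H65.SymAbs
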