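import Vale.Agent.H65.SymAbs.Defs

/-!
# SYMABS row B7: a norming direction is an eigenvector of `Tᵀ T`

For `x` with `‖x‖ = 1`, `‖T x‖ = ‖T‖` and any `y`, `t : ℝ`:
`‖T (x + t • y)‖ ^ 2 ≤ ‖T‖ ^ 2 * ‖x + t • y‖ ^ 2`, i.e. after expanding both sides
`2 t (⟪T x, T y⟫ - ‖T‖ ^ 2 ⟪x, y⟫) ≤ t ^ 2 (‖T‖ ^ 2 ‖y‖ ^ 2 - ‖T y‖ ^ 2)` for all real `t`;
a linear function dominated by a multiple of `t ^ 2` near `0` on both sides vanishes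
(apply with `t = ± s` small, or the discriminant).
-/

open Set Filter Topology

namespace Vale.Agent.H65.SymAbs

theorem top_eigen (T : E3 →L[ℝ] E3) (x : E3) (hx : x ∈ top T) (y : E3) :
    inner ℝ (T x) (T y) = ‖T‖ ^ 2 * inner ℝ x y := by
  obtain ⟨hx1, hx2⟩ := hx
  obtain ⟨a, ha⟩ : ∃ a : ℝ, a = inner ℝ (T x) (T y) - ‖T‖ ^ 2 * inner ℝ x y := ⟨_, rfl⟩
  obtain ⟨b, hb⟩ : ∃ b : ℝ, b = ‖T‖ ^ 2 * ‖y‖ ^ 2 - ‖T y‖ ^ 2 := ⟨_, rfl⟩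
  have key : ∀ t : ℝ, 2 * t * a ≤ t ^ 2 * b := by
    intro t
    rw [ha, hb]
    have h1 : ‖T (x + t • y)‖ ≤ ‖T‖ * ‖x + t • y‖ := T.le_opNorm _
    have h2 : ‖T (x + t • y)‖ ^ 2 ≤ ‖T‖ ^ 2 * ‖x + t • y‖ ^ 2 := by
      rw [← mul_pow]
      exact pow_le_pow_left₀ (norm_nonneg _) h1 2
    have h3 : ‖T (x + t • y)‖ ^ 2
        = ‖T x‖ ^ 2 + 2 * t * inner ℝ (T x) (T y) + t ^ 2 * ‖T y‖ ^ 2 := by
      rw [map_add, map_smul, norm_add_sq_real, inner_smul_right, norm_smul, mul_pow,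
        Real.norm_eq_abs, sq_abs]
      ring
    have h4 : ‖x + t • y‖ ^ 2 = ‖x‖ ^ 2 + 2 * t * inner ℝ x y + t ^ 2 * ‖y‖ ^ 2 := by
      rw [norm_add_sq_real, inner_smul_right, norm_smul, mul_pow, Real.norm_eq_abs, sq_abs]
      ring
    rw [h3, h4, hx2, hx1] at h2
    linarith
  have hb0 : 0 ≤ b := by
    rw [hb]
    have h1 : ‖T y‖ ≤ ‖T‖ * ‖y‖ := T.le_opNorm y
    have h2 : ‖T y‖ ^ 2 ≤ (‖T‖ * ‖y‖) ^ 2 := pow_le_pow_left₀ (norm_nonneg _) h1 2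
    rw [mul_pow] at h2
    linarith
  have hb1 : (0 : ℝ) < b + 1 := by linarith
  obtain ⟨k, hk⟩ : ∃ k : ℝ, k = 1 / (b + 1) := ⟨_, rfl⟩
  have hk0 : 0 < k := by
    rw [hk]
    positivity
  have hk1 : k * (b + 1) = 1 := by
    rw [hk]
    field_simp
  have h5 : 2 * (a * k) * a ≤ (a * k) ^ 2 * b := key (a * k)
  have h6 : k * b = 1 - k := by linarith
  have h7 : (a * k) ^ 2 * b = k * a ^ 2 * (1 - k) := by
    calc (a * k) ^ 2 * b = k * a ^ 2 * (k * b) := by ring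
      _ = k * a ^ 2 * (1 - k) := by rw [h6]
  rw [h7] at h5
  have h8 : k * (1 + k) * a ^ 2 ≤ 0 := by linarith
  have hpos : 0 < k * (1 + k) := by positivity
  have h9 : a ^ 2 ≤ 0 := by
    by_contra hcon
    have h10 : 0 < a ^ 2 := lt_of_not_ge hcon
    have h11 : 0 < k * (1 + k) * a ^ 2 := mul_pos hpos h10
    linarith
  have h12 : a = 0 := by
    have h13 : a ^ 2 = 0 := le_antisymm h9 (sq_nonneg a)
    exact pow_eq_zero_iff (two_ne_zero) |>.1 h13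
  rw [h12] at ha
  linarith

end Vale.Agent.H65.SymAbs
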