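import Vale.Agent.H65.SymAbs.Danskin
import Vale.Agent.H65.SymAbs.TopEigen

/-!
# SYMABS row B8: the operator norm of a perturbed operator

If `T = 0` both sides vanish. Otherwise apply `danskin` on the unit sphere `S = sphere 0 1` with
`f x = ‖T x‖ ^ 2` (`f ≤ ‖T‖ ^ 2`, and `f x = ‖T‖ ^ 2` iff `x ∈ top T`),
`g x = 2 * ⟪T x, T (G x)⟫` (`= 2 ‖T‖ ^ 2 ⟪x, G x⟫ ≤ 2 ‖T‖ ^ 2 c` on `top T` by `top_eigen`),
constants `2 ‖T‖ ^ 2 c` and `2 ‖T‖ ^ 2 η > 0`. For a unit vector `x`: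
`‖T (x + ε • G x)‖ ^ 2 = f x + ε g x + ε ^ 2 ‖T (G x)‖ ^ 2
  ≤ ‖T‖ ^ 2 (1 + 2 ε (c + η)) + ε ^ 2 ‖T‖ ^ 2 ‖G‖ ^ 2`.
Finally `ContinuousLinearMap.opNorm_le_of_unit_norm` (or `opNorm_le_bound` after scaling) with
the bound `√(right side)`; the right side is nonnegative because a unit vector exists.
-/

open Set Filter Topology

namespace Vale.Agent.H65.SymAbs

theorem norm_perturb (T G : E3 →L[ℝ] E3) (c η : ℝ) (hη : 0 < η)
    (hc : ∀ x ∈ top T, inner ℝ (G x) x ≤ c) :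
    ∀ᶠ ε in 𝓝[>] (0 : ℝ),
      ‖T * (1 + ε • G)‖ ^ 2 ≤ ‖T‖ ^ 2 * (1 + 2 * ε * (c + η) + ε ^ 2 * ‖G‖ ^ 2) := by
  by_cases hT : T = 0
  · refine Filter.Eventually.of_forall (fun ε => ?_)
    rw [hT, zero_mul, norm_zero]
    simp
  have hTpos : 0 < ‖T‖ := norm_pos_iff.mpr hT
  have hT2 : 0 < ‖T‖ ^ 2 := by positivity
  have hd := danskin (Metric.sphere (0 : E3) 1) (isCompact_sphere 0 1)
    (fun x => ‖T x‖ ^ 2) (fun x => 2 * inner ℝ (T x) (T (G x)))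
    ((T.continuous.norm.pow 2).continuousOn)
    ((continuous_const.mul (T.continuous.inner (T.continuous.comp G.continuous))).continuousOn)
    (‖T‖ ^ 2) (2 * ‖T‖ ^ 2 * c) (2 * ‖T‖ ^ 2 * η)
    (fun x hx => by
      have hx1 : ‖x‖ = 1 := by simpa using hx
      have h := T.le_opNorm x
      rw [hx1, mul_one] at h
      exact pow_le_pow_left₀ (norm_nonneg _) h 2)
    (fun x hx hfx => by
      have hx1 : ‖x‖ = 1 := by simpa using hx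
      have hn : ‖T x‖ = ‖T‖ := (sq_eq_sq₀ (norm_nonneg _) (norm_nonneg _)).mp hfx
      have hxt : x ∈ top T := ⟨hx1, hn⟩
      have he := top_eigen T x hxt (G x)
      show 2 * inner ℝ (T x) (T (G x)) ≤ 2 * ‖T‖ ^ 2 * c
      rw [he, real_inner_comm]
      have hcx := hc x hxt
      nlinarith)
    (by positivity)
  filter_upwards [hd, self_mem_nhdsWithin] with ε hε hεpos
  have key : ∀ x : E3, ‖x‖ = 1 → ‖(T * (1 + ε • G)) x‖ ^ 2 ≤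
      ‖T‖ ^ 2 * (1 + 2 * ε * (c + η) + ε ^ 2 * ‖G‖ ^ 2) := by
    intro x hx1
    have hxS : x ∈ Metric.sphere (0 : E3) 1 := by simpa using hx1
    have h1 := hε x hxS
    beta_reduce at h1
    have e : (T * (1 + ε • G)) x = T x + ε • T (G x) := by
      simp [map_add, map_smul]
    rw [e, norm_add_sq_real, inner_smul_right, norm_smul, mul_pow, Real.norm_eq_abs, sq_abs]
    have h2 : ‖T (G x)‖ ≤ ‖T‖ * ‖G‖ := by
      calc ‖T (G x)‖ ≤ ‖T‖ * ‖G x‖ := T.le_opNorm _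
        _ ≤ ‖T‖ * (‖G‖ * ‖x‖) :=
            mul_le_mul_of_nonneg_left (G.le_opNorm x) (norm_nonneg _)
        _ = ‖T‖ * ‖G‖ := by rw [hx1, mul_one]
    have h3 : ‖T (G x)‖ ^ 2 ≤ (‖T‖ * ‖G‖) ^ 2 := pow_le_pow_left₀ (norm_nonneg _) h2 2
    have h4 : 0 ≤ ε ^ 2 := sq_nonneg ε
    have h5 := mul_le_mul_of_nonneg_left h3 h4
    nlinarith [h1, h5]
  have hx0 : ‖(EuclideanSpace.single (0 : Fin 3) (1 : ℝ) : E3)‖ = 1 := by simp
  have hB0 : 0 ≤ ‖T‖ ^ 2 * (1 + 2 * ε * (c + η) + ε ^ 2 * ‖G‖ ^ 2) :=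
    le_trans (sq_nonneg _) (key _ hx0)
  have hle : ‖T * (1 + ε • G)‖ ≤
      Real.sqrt (‖T‖ ^ 2 * (1 + 2 * ε * (c + η) + ε ^ 2 * ‖G‖ ^ 2)) := by
    apply ContinuousLinearMap.opNorm_le_of_unit_norm (Real.sqrt_nonneg _)
    intro x hx1
    exact (Real.le_sqrt (norm_nonneg _) hB0).mpr (key x hx1)
  calc ‖T * (1 + ε • G)‖ ^ 2
      ≤ Real.sqrt (‖T‖ ^ 2 * (1 + 2 * ε * (c + η) + ε ^ 2 * ‖G‖ ^ 2)) ^ 2 :=
        pow_le_pow_left₀ (norm_nonneg _) hle 2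
    _ = ‖T‖ ^ 2 * (1 + 2 * ε * (c + η) + ε ^ 2 * ‖G‖ ^ 2) := Real.sq_sqrt hB0

end Vale.Agent.H65.SymAbs
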