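import Vale.Agent.H65.SymAbs.Defs

/-!
# SYMABS row B2: continuity of `phi T = |det T| / ‖T‖`

At `T ≠ 0`: quotient of continuous functions (`ContinuousLinearMap.continuous_det`). At `T = 0`
(`phi 0 = 0` because division by zero is zero): `|det T| ≤ c ‖T‖ ^ 3` by homogeneity
`det (a • T) = a ^ 3 * det T` and boundedness of `|det|` on the compact unit sphere of operators;
hence `|phi T| ≤ c ‖T‖ ^ 2`.
-/

open Set Filter Topology

namespace Vale.Agent.H65.SymAbs

/-- Homogeneity of the determinant on three-space. -/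
theorem phicont_det_smul (a : ℝ) (S : E3 →L[ℝ] E3) : (a • S).det = a ^ 3 * S.det := by
  show LinearMap.det ((a • S : E3 →L[ℝ] E3) : E3 →ₗ[ℝ] E3) = a ^ 3 * LinearMap.det (S : E3 →ₗ[ℝ] E3)
  rw [ContinuousLinearMap.toLinearMap_smul, LinearMap.det_smul, finrank_euclideanSpace_fin]

/-- The cubic bound for the determinant. -/
theorem phicont_det_bound : ∃ c : ℝ, 0 ≤ c ∧ ∀ T : E3 →L[ℝ] E3, |T.det| ≤ c * ‖T‖ ^ 3 := by
  have hcont : Continuous fun T : E3 →L[ℝ] E3 => |T.det| :=
    continuous_abs.comp ContinuousLinearMap.continuous_det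
  have hcomp : IsCompact (Metric.sphere (0 : E3 →L[ℝ] E3) 1) := isCompact_sphere 0 1
  obtain ⟨c, hc⟩ := hcomp.bddAbove_image hcont.continuousOn
  refine ⟨max c 0, le_max_right _ _, ?_⟩
  intro T
  by_cases hT : T = 0
  · subst hT
    have h0 : (0 : E3 →L[ℝ] E3).det = 0 := by
      show LinearMap.det ((0 : E3 →L[ℝ] E3) : E3 →ₗ[ℝ] E3) = 0
      rw [ContinuousLinearMap.toLinearMap_zero, LinearMap.det_zero, finrank_euclideanSpace_fin]
      norm_num
    rw [h0]
    simp
  · have hn : 0 < ‖T‖ := norm_pos_iff.mpr hT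
    have hSn : ‖(‖T‖)⁻¹ • T‖ = 1 := by
      rw [norm_smul, norm_inv, norm_norm, inv_mul_cancel₀ hn.ne']
    have hTS : T = ‖T‖ • ((‖T‖)⁻¹ • T) := by
      rw [smul_smul, mul_inv_cancel₀ hn.ne', one_smul]
    have hdet : T.det = ‖T‖ ^ 3 * ((‖T‖)⁻¹ • T).det := by
      conv_lhs => rw [hTS]
      exact phicont_det_smul _ _
    have hSb : |((‖T‖)⁻¹ • T).det| ≤ c := by
      apply hc
      refine ⟨(‖T‖)⁻¹ • T, ?_, rfl⟩
      rw [mem_sphere_zero_iff_norm]
      exact hSn
    rw [hdet, abs_mul, abs_of_nonneg (pow_nonneg hn.le 3), mul_comm]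
    exact mul_le_mul_of_nonneg_right (hSb.trans (le_max_left _ _)) (pow_nonneg hn.le 3)

theorem phi_continuous : Continuous phi := by
  obtain ⟨c, hc0, hc⟩ := phicont_det_bound
  rw [continuous_iff_continuousAt]
  intro T
  by_cases hT : T = 0
  · subst hT
    have hphi0 : phi 0 = 0 := by
      unfold phi
      rw [norm_zero, div_zero]
    have hbound : ∀ T : E3 →L[ℝ] E3, |phi T| ≤ c * ‖T‖ ^ 2 := by
      intro T
      by_cases hT : T = 0
      · subst hT
        rw [hphi0]
        simp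
      · have hn : 0 < ‖T‖ := norm_pos_iff.mpr hT
        unfold phi
        rw [abs_div, abs_abs, abs_of_pos hn, div_le_iff₀ hn]
        calc |T.det| ≤ c * ‖T‖ ^ 3 := hc T
          _ = c * ‖T‖ ^ 2 * ‖T‖ := by ring
    have hlim : Tendsto (fun T : E3 →L[ℝ] E3 => c * ‖T‖ ^ 2) (𝓝 0) (𝓝 0) := by
      have h1 : Continuous fun T : E3 →L[ℝ] E3 => c * ‖T‖ ^ 2 := by fun_prop
      have h2 := h1.tendsto 0
      simpa using h2
    unfold ContinuousAt
    rw [hphi0]
    exact squeeze_zero_norm (fun T => by simpa [Real.norm_eq_abs] using hbound T) hlim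
  · have hn : ‖T‖ ≠ 0 := norm_ne_zero_iff.mpr hT
    have h1 : ContinuousAt (fun T : E3 →L[ℝ] E3 => |T.det|) T :=
      (continuous_abs.comp ContinuousLinearMap.continuous_det).continuousAt
    have h2 : ContinuousAt (fun T : E3 →L[ℝ] E3 => ‖T‖) T := continuous_norm.continuousAt
    exact h1.div h2 hn

end Vale.Agent.H65.SymAbs
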