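import Vale.Agent.H65.SymAbs.Feas
import Vale.Agent.H65.SymAbs.PhiCont

/-!
# SYMABS row B3: existence of the optimal operator

`IsCompact.exists_isMaxOn` for `phi` on the compact nonempty set `feas K`. The maximiser `T` has
`phi T ≥ phi (r • 1) = r ^ 3 / r = r ^ 2 > 0` (`det (r • 1) = r ^ 3`, `‖r • 1‖ = r`), hence
`T.det ≠ 0`.
-/

open Set Filter Topology

namespace Vale.Agent.H65.SymAbs

theorem opt_phi_smul_one_pos (r : ℝ) (hr : 0 < r) :
    0 < phi (r • (1 : E3 →L[ℝ] E3)) := by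
  unfold phi
  have hdet : (r • (1 : E3 →L[ℝ] E3)).det ≠ 0 := by
    have h : (r • (1 : E3 →L[ℝ] E3)).det = r ^ Module.finrank ℝ E3 := by
      unfold ContinuousLinearMap.det
      rw [ContinuousLinearMap.toLinearMap_smul, LinearMap.det_smul]
      simp
    rw [h]
    exact pow_ne_zero _ hr.ne'
  have hne : (r • (1 : E3 →L[ℝ] E3)) ≠ 0 := by
    intro h0
    apply hdet
    rw [h0]
    unfold ContinuousLinearMap.det
    simp
  exact div_pos (abs_pos.mpr hdet) (norm_pos_iff.mpr hne)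

theorem exists_opt (K : Set E3) (hK : IsCompact K) (r : ℝ) (hr : 0 < r)
    (hrK : (r • (1 : E3 →L[ℝ] E3)) ∈ feas K) :
    ∃ T ∈ feas K, T.det ≠ 0 ∧ ∀ T' ∈ feas K, phi T' ≤ phi T := by
  obtain ⟨T, hT, hmax⟩ :=
    (feas_compact K hK).exists_isMaxOn ⟨_, hrK⟩ phi_continuous.continuousOn
  refine ⟨T, hT, ?_, fun T' hT' => hmax hT'⟩
  have h1 : phi (r • (1 : E3 →L[ℝ] E3)) ≤ phi T := hmax hrK
  have h2 := opt_phi_smul_one_pos r hr
  intro hdet
  have h3 : phi T = 0 := by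
    unfold phi
    rw [hdet]
    simp
  linarith

end Vale.Agent.H65.SymAbs
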