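import Vale.Agent.H65.SymAbs.ParaArea

/-!
# SYMABS row C3: the shadow of a set lying in two slabs

The orthogonal complement of `span {n, n'}` in three-space is nonzero: take a unit vector `u` in
it, `⟪u, n⟫ = ⟪u, n'⟫ = 0`. Let `H = (span {u})ᗮ` (`finrank = 2`,
`Submodule.finrank_orthogonal_span_singleton`), `a = ⟨n, _⟩`, `b = ⟨n', _⟩` in `H`
(`H76.mem_orth_of_inner`). By `H76.hausdorff_shadow` the shadow has measure
`volume (H.orthogonalProjectionOnto '' K)`; for `x ∈ K` and `y` the projection of `x`: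
`⟪y, a⟫ = ⟪x - ⟪x, u⟫ • u, n⟫ = ⟪x, n⟫` (`H76.coe_proj`), so the projected set lies in the
parallelogram of `parallelogram_area` for `a`, `b`, whose norms and inner product are those of
`n`, `n'`.
-/

open MeasureTheory Set Module
open scoped ENNReal

namespace Vale.Agent.H65.SymAbs

open Vale.Agent.H76

/-- A unit vector orthogonal to two given vectors of three-space. -/
theorem twoslabs_exists_unit (n n' : E3) :
    ∃ u : E3, ‖u‖ = 1 ∧ inner ℝ n u = 0 ∧ inner ℝ n' u = 0 := by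
  let f : E3 →ₗ[ℝ] ℝ × ℝ :=
    LinearMap.prod (innerSL ℝ n : E3 →ₗ[ℝ] ℝ) (innerSL ℝ n' : E3 →ₗ[ℝ] ℝ)
  have hlt : finrank ℝ (ℝ × ℝ) < finrank ℝ E3 := by
    simp
  have hker : LinearMap.ker f ≠ ⊥ := LinearMap.ker_ne_bot_of_finrank_lt hlt
  obtain ⟨v, hv, hv0⟩ := Submodule.exists_mem_ne_zero_of_ne_bot hker
  have hfv : f v = 0 := hv
  have h1 : inner ℝ n v = 0 := by
    have := congrArg Prod.fst hfv
    simpa [f] using this
  have h2 : inner ℝ n' v = 0 := by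
    have := congrArg Prod.snd hfv
    simpa [f] using this
  have hnv : ‖v‖ ≠ 0 := norm_ne_zero_iff.mpr hv0
  refine ⟨‖v‖⁻¹ • v, ?_, ?_, ?_⟩
  · rw [norm_smul, norm_inv, norm_norm, inv_mul_cancel₀ hnv]
  · rw [inner_smul_right, h1, mul_zero]
  · rw [inner_smul_right, h2, mul_zero]

theorem shadow_two_slabs (K : Set E3) (n n' : E3) (hn : ∀ x ∈ K, |inner ℝ x n| ≤ 1)
    (hn' : ∀ x ∈ K, |inner ℝ x n'| ≤ 1)
    (hg : 0 < ‖n‖ ^ 2 * ‖n'‖ ^ 2 - (inner ℝ n n') ^ 2) :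
    ∃ u : E3, ‖u‖ = 1 ∧ μHE[2] ((fun x => x - inner ℝ x u • u) '' K) ≤
      ENNReal.ofReal (4 / √(‖n‖ ^ 2 * ‖n'‖ ^ 2 - (inner ℝ n n') ^ 2)) := by
  obtain ⟨u, hu, hnu, hnu'⟩ := twoslabs_exists_unit n n'
  refine ⟨u, hu, ?_⟩
  have hE : finrank ℝ E3 = 3 := by simp
  have hu0 : u ≠ 0 := by
    rintro rfl
    simp at hu
  have hfact : Fact (finrank ℝ E3 = 2 + 1) := ⟨hE⟩
  have hH : finrank ℝ ↥(Submodule.span ℝ {u})ᗮ = 2 :=
    Submodule.finrank_orthogonal_span_singleton hu0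
  rw [hausdorff_shadow hE u hu K]
  let a : ↥(Submodule.span ℝ {u})ᗮ := ⟨n, mem_orth_of_inner u n hnu⟩
  let b : ↥(Submodule.span ℝ {u})ᗮ := ⟨n', mem_orth_of_inner u n' hnu'⟩
  have hna : ‖a‖ = ‖n‖ := rfl
  have hnb : ‖b‖ = ‖n'‖ := rfl
  have hab : inner ℝ a b = inner ℝ n n' := rfl
  have hg' : 0 < ‖a‖ ^ 2 * ‖b‖ ^ 2 - (inner ℝ a b) ^ 2 := by
    rw [hna, hnb, hab]
    exact hg
  have hsub : (Submodule.span ℝ {u})ᗮ.orthogonalProjectionOnto '' K ⊆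
      {y : ↥(Submodule.span ℝ {u})ᗮ | |inner ℝ y a| ≤ 1 ∧ |inner ℝ y b| ≤ 1} := by
    rintro y ⟨x, hx, rfl⟩
    have key : ∀ m : E3, inner ℝ u m = 0 → ∀ hm : m ∈ (Submodule.span ℝ {u})ᗮ,
        inner ℝ ((Submodule.span ℝ {u})ᗮ.orthogonalProjectionOnto x)
          (⟨m, hm⟩ : ↥(Submodule.span ℝ {u})ᗮ) = inner ℝ x m := by
      intro m hm hmem
      rw [Submodule.coe_inner, coe_proj u hu x, inner_sub_left, inner_smul_left, hm]
      simp
    refine ⟨?_, ?_⟩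
    · have := key n (by rw [real_inner_comm]; exact hnu) (mem_orth_of_inner u n hnu)
      change |inner ℝ ((Submodule.span ℝ {u})ᗮ.orthogonalProjectionOnto x) a| ≤ 1
      rw [show a = ⟨n, mem_orth_of_inner u n hnu⟩ from rfl, this]
      exact hn x hx
    · have := key n' (by rw [real_inner_comm]; exact hnu') (mem_orth_of_inner u n' hnu')
      change |inner ℝ ((Submodule.span ℝ {u})ᗮ.orthogonalProjectionOnto x) b| ≤ 1
      rw [show b = ⟨n', mem_orth_of_inner u n' hnu'⟩ from rfl, this]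
      exact hn' x hx
  calc volume ((Submodule.span ℝ {u})ᗮ.orthogonalProjectionOnto '' K)
      ≤ volume {y : ↥(Submodule.span ℝ {u})ᗮ | |inner ℝ y a| ≤ 1 ∧ |inner ℝ y b| ≤ 1} :=
        measure_mono hsub
    _ ≤ ENNReal.ofReal (4 / √(‖a‖ ^ 2 * ‖b‖ ^ 2 - (inner ℝ a b) ^ 2)) :=
        parallelogram_area hH a b hg'
    _ = ENNReal.ofReal (4 / √(‖n‖ ^ 2 * ‖n'‖ ^ 2 - (inner ℝ n n') ^ 2)) := by
        rw [hna, hnb, hab]

end Vale.Agent.H65.SymAbs
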