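import Vale.Agent.H65.SymAbs.ClaimB
import Vale.Agent.H65.SymAbs.EllCover
import Vale.Agent.H65.SymAbs.TwoSlabs

/-!
# SYMABS row D1: the half-area inequality for bodies symmetric about the origin

`claimB` gives `T`, `n`, `n'` with `‖T‖ ^ 2 ≤ 2 g (det T) ^ 2`, `g` the Gram expression; `‖T‖ > 0`
(`T ≠ 0` since `det T ≠ 0`), so `g > 0`. `ellipsoid_covering` (the open ball goes into `K`, which
is covered): `ofReal (π |det T| / ‖T‖) ≤ ∑ i, μHE[2] (B i)`. `shadow_two_slabs`: a unit `u0` with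
`μHE[2] (shadow of K along u0) ≤ ofReal (4 / √g)`; the infimum is at most this (`iInf_le_of_le`).
Real inequality: `√g ≥ ‖T‖ / (√2 |det T|)`, hence
`(27 / 50) * (4 / √g) ≤ (27 / 50) * 4 * √2 * |det T| / ‖T‖ ≤ π |det T| / ‖T‖`, using
`√2 ≤ 1.4143` and `3.1415 < π` (`Real.pi_gt_d4`). Convert with `ENNReal.ofReal_mul`,
`ENNReal.ofReal_le_ofReal`.
-/

open MeasureTheory Set Module
open scoped ENNReal

namespace Vale.Agent.H65.SymAbs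

open Vale.Agent.H76

theorem origin_real (N d g : ℝ) (hN : 0 < N) (hd : 0 < d) (hg : 0 < g)
    (h : N ^ 2 ≤ 2 * g * d ^ 2) :
    27 / 50 * (4 / √g) ≤ Real.pi * d / N := by
  have hsg : 0 < √g := Real.sqrt_pos.2 hg
  have hsg2 : √g ^ 2 = g := Real.sq_sqrt hg.le
  have hpi : (3.14 : ℝ) < Real.pi := Real.pi_gt_d2
  have hpi0 : 0 < Real.pi := Real.pi_pos
  rw [le_div_iff₀ hN]
  have h1 : 27 / 50 * (4 / √g) * N = 54 / 25 * N / √g := by ring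
  rw [h1, div_le_iff₀ hsg]
  have h2 : (54 / 25 * N) ^ 2 ≤ (Real.pi * d * √g) ^ 2 := by
    have h3 : (Real.pi * d * √g) ^ 2 = Real.pi ^ 2 * (g * d ^ 2) := by
      rw [mul_pow, mul_pow, hsg2]
      ring
    rw [h3]
    have h4 : (3.14 : ℝ) ^ 2 ≤ Real.pi ^ 2 := pow_le_pow_left₀ (by norm_num) hpi.le 2
    have h5 : 0 ≤ g * d ^ 2 := by positivity
    nlinarith
  exact abs_le_of_sq_le_sq' h2 (by positivity) |>.2

theorem symabs_origin (m : ℕ)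
    (K : Set E3) (hKconv : Convex ℝ K) (hKcomp : IsCompact K)
    (hKint : (interior K).Nonempty) (hKsym : ∀ x ∈ K, -x ∈ K)
    (u : Fin m → E3) (hu : ∀ i, ‖u i‖ = 1) (B : Fin m → Set E3)
    (hB : ∀ i, ∀ x ∈ B i, inner ℝ x (u i) = 0)
    (hcov : K ⊆ ⋃ i, {x | ∃ b ∈ B i, ∃ t : ℝ, x = b + t • u i}) :
    (27 / 50 : ℝ≥0∞) *
        (⨅ v : E3, ⨅ _ : ‖v‖ = 1, μHE[2] ((fun x => x - inner ℝ x v • v) '' K)) ≤
      ∑ i, μHE[2] (B i) := by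
  obtain ⟨T, hdet, hball, n, n', hn, hn', hTg⟩ := claimB K hKconv hKcomp hKint hKsym
  have hT0 : T ≠ 0 := by
    rintro rfl
    apply hdet
    simp [ContinuousLinearMap.det]
  have hN : 0 < ‖T‖ := norm_pos_iff.2 hT0
  have hd : 0 < |T.det| := abs_pos.2 hdet
  have hd2 : |T.det| ^ 2 = T.det ^ 2 := sq_abs _
  have hg : 0 < ‖n‖ ^ 2 * ‖n'‖ ^ 2 - (inner ℝ n n') ^ 2 := by
    by_contra hcon
    have h1 : ‖n‖ ^ 2 * ‖n'‖ ^ 2 - (inner ℝ n n') ^ 2 ≤ 0 := le_of_not_gt hcon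
    have h2 : 0 ≤ T.det ^ 2 := sq_nonneg _
    have h3 : 0 < ‖T‖ ^ 2 := by positivity
    nlinarith
  have hcov' : T '' Metric.ball 0 1 ⊆ ⋃ i, {x | ∃ b ∈ B i, ∃ t : ℝ, x = b + t • u i} := by
    rintro _ ⟨y, hy, rfl⟩
    apply hcov
    apply hball
    have h1 : ‖y‖ < 1 := by simpa using hy
    exact h1.le
  have h1 := ellipsoid_covering m T hdet u hu B hB hcov'
  obtain ⟨u0, hu0, h2⟩ := shadow_two_slabs K n n' hn hn' hg
  have hreal := origin_real ‖T‖ |T.det| (‖n‖ ^ 2 * ‖n'‖ ^ 2 - (inner ℝ n n') ^ 2) hN hd hg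
    (by rw [hd2]; exact hTg)
  have hc : (27 / 50 : ℝ≥0∞) = ENNReal.ofReal (27 / 50) := by
    rw [ENNReal.ofReal_div_of_pos (by norm_num)]
    simp
  calc (27 / 50 : ℝ≥0∞) *
        (⨅ v : E3, ⨅ _ : ‖v‖ = 1, μHE[2] ((fun x => x - inner ℝ x v • v) '' K))
      ≤ (27 / 50 : ℝ≥0∞) * μHE[2] ((fun x => x - inner ℝ x u0 • u0) '' K) :=
        by gcongr; exact iInf₂_le u0 hu0
    _ ≤ (27 / 50 : ℝ≥0∞) *
          ENNReal.ofReal (4 / √(‖n‖ ^ 2 * ‖n'‖ ^ 2 - (inner ℝ n n') ^ 2)) :=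
        by gcongr
    _ = ENNReal.ofReal (27 / 50 * (4 / √(‖n‖ ^ 2 * ‖n'‖ ^ 2 - (inner ℝ n n') ^ 2))) := by
        rw [hc, ← ENNReal.ofReal_mul (by norm_num)]
    _ ≤ ENNReal.ofReal (Real.pi * |T.det| / ‖T‖) := ENNReal.ofReal_le_ofReal hreal
    _ ≤ ∑ i, μHE[2] (B i) := h1

end Vale.Agent.H65.SymAbs
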