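import Vale.Agent.H65.SymAbs.ParaPlane

/-!
# SYMABS row C2: the area of a parallelogram in a Euclidean plane

Take the measure preserving linear isometry-like equivalence `e : H ≃L[ℝ] ℝ × ℝ` built from an
orthonormal basis `b` of `H` exactly as in `H76.hasBM2_of_finrank_two`
(`Vale/Agent/H76/Transfer.lean`): `e y = (⟪b 0, y⟫, ⟪b 1, y⟫)`. With `a1 = ⟪b 0, a⟫`,
`a2 = ⟪b 1, a⟫`, `b1 = ⟪b 0, b'⟫`, `b2 = ⟪b 1, b'⟫`: `⟪y, a⟫ = (e y).1 * a1 + (e y).2 * a2`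
(`OrthonormalBasis.sum_inner_mul_inner`), and the Lagrange identity: the square of
`a1 * b2 - a2 * b1` is `‖a‖ ^ 2 ‖b'‖ ^ 2 - ⟪a, b'⟫ ^ 2`, so `|a1 * b2 - a2 * b1| = √gram`.
The set is the preimage under `e` of the set of `parallelogram_plane`.
-/

open MeasureTheory Set Module
open scoped ENNReal

namespace Vale.Agent.H65.SymAbs

open Vale.Agent.H76

/-- Expansion of an inner product in an orthonormal basis of a plane. -/
theorem paraarea_inner {H : Type*} [NormedAddCommGroup H] [InnerProductSpace ℝ H]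
    (b : OrthonormalBasis (Fin 2) ℝ H) (x y : H) :
    inner ℝ x y = inner ℝ (b 0) x * inner ℝ (b 0) y + inner ℝ (b 1) x * inner ℝ (b 1) y := by
  have h := b.sum_inner_mul_inner x y
  rw [Fin.sum_univ_two] at h
  rw [← h, real_inner_comm (b 0) x, real_inner_comm (b 1) x]

theorem parallelogram_area {H : Type*} [NormedAddCommGroup H] [InnerProductSpace ℝ H]
    [FiniteDimensional ℝ H] [MeasurableSpace H] [BorelSpace H] (hH : finrank ℝ H = 2)
    (a b : H) (hg : 0 < ‖a‖ ^ 2 * ‖b‖ ^ 2 - (inner ℝ a b) ^ 2) :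
    volume {y : H | |inner ℝ y a| ≤ 1 ∧ |inner ℝ y b| ≤ 1} ≤
      ENNReal.ofReal (4 / √(‖a‖ ^ 2 * ‖b‖ ^ 2 - (inner ℝ a b) ^ 2)) := by
  let ob : OrthonormalBasis (Fin 2) ℝ H := (stdOrthonormalBasis ℝ H).reindex (finCongr hH)
  let e : H ≃L[ℝ] ℝ × ℝ :=
    (ob.repr.toContinuousLinearEquiv.trans (EuclideanSpace.equiv (Fin 2) ℝ)).trans
      (ContinuousLinearEquiv.finTwoArrow ℝ ℝ)
  have he : MeasurePreserving e volume volume := by
    have h1 := ob.measurePreserving_repr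
    have h2 := PiLp.volume_preserving_ofLp (Fin 2)
    have h3 := volume_preserving_finTwoArrow ℝ
    exact h3.comp (h2.comp h1)
  have he1 : ∀ y : H, (e y).1 = inner ℝ (ob 0) y := by
    intro y
    show ob.repr y 0 = inner ℝ (ob 0) y
    exact ob.repr_apply_apply y 0
  have he2 : ∀ y : H, (e y).2 = inner ℝ (ob 1) y := by
    intro y
    show ob.repr y 1 = inner ℝ (ob 1) y
    exact ob.repr_apply_apply y 1
  obtain ⟨a1, ha1⟩ : ∃ a1 : ℝ, a1 = inner ℝ (ob 0) a := ⟨_, rfl⟩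
  obtain ⟨a2, ha2⟩ : ∃ a2 : ℝ, a2 = inner ℝ (ob 1) a := ⟨_, rfl⟩
  obtain ⟨b1, hb1⟩ : ∃ b1 : ℝ, b1 = inner ℝ (ob 0) b := ⟨_, rfl⟩
  obtain ⟨b2, hb2⟩ : ∃ b2 : ℝ, b2 = inner ℝ (ob 1) b := ⟨_, rfl⟩
  have hna : ‖a‖ ^ 2 = a1 * a1 + a2 * a2 := by
    rw [← real_inner_self_eq_norm_sq, paraarea_inner ob a a, ← ha1, ← ha2]
  have hnb : ‖b‖ ^ 2 = b1 * b1 + b2 * b2 := by
    rw [← real_inner_self_eq_norm_sq, paraarea_inner ob b b, ← hb1, ← hb2]
  have hab : inner ℝ a b = a1 * b1 + a2 * b2 := by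
    rw [paraarea_inner ob a b, ← ha1, ← ha2, ← hb1, ← hb2]
  have hgram : ‖a‖ ^ 2 * ‖b‖ ^ 2 - (inner ℝ a b) ^ 2 = (a1 * b2 - a2 * b1) ^ 2 := by
    rw [hna, hnb, hab]
    ring
  have hdet : a1 * b2 - a2 * b1 ≠ 0 := by
    intro h0
    rw [hgram, h0] at hg
    norm_num at hg
  have hset : {y : H | |inner ℝ y a| ≤ 1 ∧ |inner ℝ y b| ≤ 1} =
      e ⁻¹' {p : ℝ × ℝ | |p.1 * a1 + p.2 * a2| ≤ 1 ∧ |p.1 * b1 + p.2 * b2| ≤ 1} := by
    ext y
    simp only [Set.mem_ofPred_eq, mem_preimage]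
    rw [he1, he2, paraarea_inner ob y a, paraarea_inner ob y b, ← ha1, ← ha2, ← hb1, ← hb2]
  have hclosed : IsClosed {p : ℝ × ℝ | |p.1 * a1 + p.2 * a2| ≤ 1 ∧ |p.1 * b1 + p.2 * b2| ≤ 1} := by
    have hc1 : Continuous fun p : ℝ × ℝ => |p.1 * a1 + p.2 * a2| := by fun_prop
    have hc2 : Continuous fun p : ℝ × ℝ => |p.1 * b1 + p.2 * b2| := by fun_prop
    exact (isClosed_le hc1 continuous_const).inter (isClosed_le hc2 continuous_const)
  rw [hset, he.measure_preimage hclosed.measurableSet.nullMeasurableSet,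
    parallelogram_plane a1 a2 b1 b2 hdet, hgram, Real.sqrt_sq_eq_abs]

end Vale.Agent.H65.SymAbs
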