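import Vale.Agent.H65.SymAbs.Weight

/-!
# SYMABS row C1: the area of a parallelogram in the coordinate plane

The set is the preimage of the square `Icc (-1) 1 ×ˢ Icc (-1) 1` (volume `4`) under the linear map
`f p = (p.1 * a1 + p.2 * a2, p.1 * b1 + p.2 * b2)` of `ℝ × ℝ`, whose determinant is
`a1 * b2 - a2 * b1` (matrix in the basis `Module.Basis.finTwoProd`; model: `pln_det` in
`Vale/Agent/H5/P243/Planar.lean`). `MeasureTheory.Measure.addHaar_preimage_linearMap` gives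
`volume (f ⁻¹' s) = ofReal |(det f)⁻¹| * volume s`.
-/

open MeasureTheory Set Module
open scoped ENNReal

namespace Vale.Agent.H65.SymAbs

open Vale.Agent.H76

theorem parallelogram_plane (a1 a2 b1 b2 : ℝ) (h : a1 * b2 - a2 * b1 ≠ 0) :
    volume {p : ℝ × ℝ | |p.1 * a1 + p.2 * a2| ≤ 1 ∧ |p.1 * b1 + p.2 * b2| ≤ 1} =
      ENNReal.ofReal (4 / |a1 * b2 - a2 * b1|) := by
  let f : ℝ × ℝ →ₗ[ℝ] ℝ × ℝ :=
    (a1 • LinearMap.fst ℝ ℝ ℝ + a2 • LinearMap.snd ℝ ℝ ℝ).prod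
      (b1 • LinearMap.fst ℝ ℝ ℝ + b2 • LinearMap.snd ℝ ℝ ℝ)
  have hf : ∀ p : ℝ × ℝ, f p = (a1 * p.1 + a2 * p.2, b1 * p.1 + b2 * p.2) := by
    intro p
    simp [f]
  have hdet : LinearMap.det f = a1 * b2 - a2 * b1 := by
    rw [← LinearMap.det_toMatrix (Module.Basis.finTwoProd ℝ), Matrix.det_fin_two]
    simp [LinearMap.toMatrix_apply, hf]
  have hset : {p : ℝ × ℝ | |p.1 * a1 + p.2 * a2| ≤ 1 ∧ |p.1 * b1 + p.2 * b2| ≤ 1} =
      f ⁻¹' (Icc (-1 : ℝ) 1 ×ˢ Icc (-1 : ℝ) 1) := by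
    ext p
    simp only [Set.mem_ofPred_eq, mem_preimage, hf, mem_prod, mem_Icc, abs_le]
    constructor
    · rintro ⟨⟨h1, h2⟩, h3, h4⟩
      exact ⟨⟨by linarith, by linarith⟩, by linarith, by linarith⟩
    · rintro ⟨⟨h1, h2⟩, h3, h4⟩
      exact ⟨⟨by linarith, by linarith⟩, by linarith, by linarith⟩
  have hdet0 : LinearMap.det f ≠ 0 := by
    rw [hdet]
    exact h
  rw [hset, Measure.addHaar_preimage_linearMap _ hdet0, hdet,
    Measure.volume_eq_prod, Measure.prod_prod, Real.volume_Icc,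
    ← ENNReal.ofReal_mul (by norm_num), ← ENNReal.ofReal_mul (abs_nonneg _)]
  congr 1
  rw [abs_inv]
  have hne : |a1 * b2 - a2 * b1| ≠ 0 := abs_ne_zero.mpr h
  field_simp
  ring

end Vale.Agent.H65.SymAbs
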