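import Vale.Agent.H65.SymAbs.Defs

/-!
# SYMABS row B5: feasible perturbations

If `⟪G m, m⟫ ≤ -δ` on the contact directions, then `T * (1 + ε • G)` maps the closed unit ball
into `K` for all small `ε > 0`.

Proof. Let `N = {y | ‖y‖ = 1 ∧ -δ / 2 ≤ ⟪G y, y⟫}` (compact). No `y ∈ N` is a contact direction, so
`T y ∈ K \ frontier K = interior K` (`K` closed). `T '' N` is a compact subset of the open set
`interior K`: `IsCompact.exists_thickening_subset_open` gives `η > 0` with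
`thickening η (T '' N) ⊆ interior K`. For `0 < ε` with `ε * (‖T‖ * ‖G‖) < η` and
`ε * ‖G‖ ^ 2 ≤ δ`:
* unit `y ∈ N`: `dist (T (y + ε • G y)) (T y) ≤ ε * ‖T‖ * ‖G‖ < η`, so the point is in `K`;
* unit `y ∉ N`: `‖y + ε • G y‖ ^ 2 = 1 + 2 ε ⟪G y, y⟫ + ε ^ 2 ‖G y‖ ^ 2 ≤ 1 - ε δ + ε ^ 2 ‖G‖ ^ 2
  ≤ 1`, so `T (y + ε • G y) ∈ K` by `hT`;
* `0 < ‖y‖ ≤ 1`: the image of `y` is `‖y‖` times the image of `‖y‖⁻¹ • y`; `K` is convex and
  contains `0` (`Convex.smul_mem_of_zero_mem`); `y = 0` maps to `0 ∈ K`.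
-/

open Set Filter Topology

namespace Vale.Agent.H65.SymAbs

theorem feas_perturb (K : Set E3) (hKconv : Convex ℝ K) (hKcl : IsClosed K) (h0 : (0 : E3) ∈ K)
    (T : E3 →L[ℝ] E3) (hT : T ∈ feas K) (G : E3 →L[ℝ] E3) (δ : ℝ) (hδ : 0 < δ)
    (hG : ∀ m ∈ contact K T, inner ℝ (G m) m ≤ -δ) :
    ∀ᶠ ε in 𝓝[>] (0 : ℝ), T * (1 + ε • G) ∈ feas K := by
  set N : Set E3 := Metric.sphere (0 : E3) 1 ∩ {y | -δ / 2 ≤ inner ℝ (G y) y} with hN
  have hNc : IsCompact N := by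
    refine (isCompact_sphere (0 : E3) 1).inter_right ?_
    exact isClosed_le continuous_const (by fun_prop)
  have hTN : T '' N ⊆ interior K := by
    rintro _ ⟨y, hy, rfl⟩
    have hy1 : ‖y‖ = 1 := by simpa using hy.1
    have hyK : T y ∈ K := hT y hy1.le
    have hnc : T y ∉ frontier K := by
      intro hfr
      have h1 := hG y ⟨hy1, hfr⟩
      have h2 : -δ / 2 ≤ inner ℝ (G y) y := hy.2
      linarith
    rw [hKcl.frontier_eq] at hnc
    by_contra hint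
    exact hnc ⟨hyK, hint⟩
  obtain ⟨η, hη, hthick⟩ :=
    (hNc.image T.continuous).exists_thickening_subset_open isOpen_interior hTN
  have hA : 0 < ‖T‖ * ‖G‖ + 1 := by positivity
  have hB : 0 < ‖G‖ ^ 2 + 1 := by positivity
  have hε₀pos : 0 < min (η / (‖T‖ * ‖G‖ + 1)) (δ / (‖G‖ ^ 2 + 1)) :=
    lt_min (div_pos hη hA) (div_pos hδ hB)
  filter_upwards [Ioo_mem_nhdsGT hε₀pos] with ε hε
  obtain ⟨hεpos, hεlt⟩ := hε
  have h1 : ε * (‖T‖ * ‖G‖) < η := by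
    have h3 : ε < η / (‖T‖ * ‖G‖ + 1) := lt_of_lt_of_le hεlt (min_le_left _ _)
    have h := (lt_div_iff₀ hA).mp h3
    nlinarith [norm_nonneg T, norm_nonneg G]
  have h2 : ε * ‖G‖ ^ 2 ≤ δ := by
    have h3 : ε < δ / (‖G‖ ^ 2 + 1) := lt_of_lt_of_le hεlt (min_le_right _ _)
    have h := (lt_div_iff₀ hB).mp h3
    nlinarith [sq_nonneg ‖G‖]
  -- the unit case
  have hunit : ∀ u : E3, ‖u‖ = 1 → T (u + ε • G u) ∈ K := by
    intro u hu
    have hGu : ‖G u‖ ≤ ‖G‖ := by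
      have h := G.le_opNorm u
      rwa [hu, mul_one] at h
    by_cases huN : u ∈ N
    · apply interior_subset
      apply hthick
      rw [Metric.mem_thickening_iff]
      refine ⟨T u, ⟨u, huN, rfl⟩, ?_⟩
      rw [dist_eq_norm]
      have hsub : T (u + ε • G u) - T u = T (ε • G u) := by
        rw [map_add]; abel
      rw [hsub]
      calc ‖T (ε • G u)‖ ≤ ‖T‖ * ‖ε • G u‖ := T.le_opNorm _
        _ = ‖T‖ * (ε * ‖G u‖) := by rw [norm_smul, Real.norm_of_nonneg hεpos.le]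
        _ ≤ ‖T‖ * (ε * ‖G‖) := by gcongr
        _ = ε * (‖T‖ * ‖G‖) := by ring
        _ < η := h1
    · apply hT
      have hlt : inner ℝ (G u) u < -δ / 2 := by
        by_contra hcon
        exact huN ⟨by simpa using hu, not_lt.mp hcon⟩
      have hc : inner ℝ u (G u) = inner ℝ (G u) u := real_inner_comm _ _
      have hexp : ‖u + ε • G u‖ ^ 2 = 1 + 2 * (ε * inner ℝ (G u) u) + (ε * ‖G u‖) ^ 2 := by
        rw [norm_add_sq_real, hu, real_inner_smul_right, hc, norm_smul,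
          Real.norm_of_nonneg hεpos.le]
        ring
      have hG2 : ‖G u‖ ^ 2 ≤ ‖G‖ ^ 2 := by gcongr
      have hsq : ‖u + ε • G u‖ ^ 2 ≤ 1 := by
        rw [hexp]
        have e1 : ε * inner ℝ (G u) u ≤ ε * (-δ / 2) :=
          mul_le_mul_of_nonneg_left hlt.le hεpos.le
        have e2 : (ε * ‖G u‖) ^ 2 ≤ ε * δ := by
          calc (ε * ‖G u‖) ^ 2 = ε * (ε * ‖G u‖ ^ 2) := by ring
            _ ≤ ε * (ε * ‖G‖ ^ 2) := by gcongr
            _ ≤ ε * δ := by gcongr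
        linarith
      nlinarith [norm_nonneg (u + ε • G u)]
  intro y hy
  have hval : (T * (1 + ε • G)) y = T (y + ε • G y) := by simp
  rw [hval]
  by_cases hy0 : y = 0
  · subst hy0
    simpa using h0
  · have hyn : 0 < ‖y‖ := norm_pos_iff.mpr hy0
    have hu1 : ‖‖y‖⁻¹ • y‖ = 1 := by
      rw [norm_smul, norm_inv, norm_norm, inv_mul_cancel₀ hyn.ne']
    have hyu : y = ‖y‖ • (‖y‖⁻¹ • y) := by
      rw [smul_smul, mul_inv_cancel₀ hyn.ne', one_smul]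
    have he : ‖y‖ • (‖y‖⁻¹ • y + ε • G (‖y‖⁻¹ • y)) = y + ε • G y := by
      have hG1 : ‖y‖ • G (‖y‖⁻¹ • y) = G y := by
        rw [← map_smul G, ← hyu]
      rw [smul_add, ← hyu, smul_comm ‖y‖ ε, hG1]
    have hsc : T (y + ε • G y) = ‖y‖ • T (‖y‖⁻¹ • y + ε • G (‖y‖⁻¹ • y)) := by
      rw [← map_smul T, he]
    rw [hsc]
    exact hKconv.smul_mem_of_zero_mem h0 (hunit _ hu1) ⟨hyn.le, hy⟩

end Vale.Agent.H65.SymAbs
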