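import Vale.Agent.H65.SymAbs.Defs
import Vale.Agent.H76.Space

/-!
# SYMABS Part A: the Archimedes weight

`wt q = 1 / √(1 - q)` for `q < 1` and `0` otherwise, as a function of the squared norm: the weight
`x ↦ wt (‖A x‖ ^ 2)` lives on the open ellipsoid `{x | ‖A x‖ < 1}` and all its line integrals in
a direction `u` are equal to `π / ‖A u‖` or to `0`.
-/

open MeasureTheory Set Module
open scoped ENNReal

namespace Vale.Agent.H65.SymAbs

open Vale.Agent.H76

/-- The Archimedes weight as a function of the squared norm. -/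
noncomputable def wt (q : ℝ) : ℝ≥0∞ := if q < 1 then ENNReal.ofReal (1 / √(1 - q)) else 0

theorem wt_of_lt {q : ℝ} (h : q < 1) : wt q = ENNReal.ofReal (1 / √(1 - q)) := if_pos h

theorem wt_of_le {q : ℝ} (h : 1 ≤ q) : wt q = 0 := if_neg (not_lt.2 h)

end Vale.Agent.H65.SymAbs
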