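import Vale.Agent.H65.SymAbs.Weight

/-!
# SYMABS row A1: the line integral of the Archimedes weight

* `measurable_wt`: `Measurable.ite` / `Measurable.piecewise` with `measurableSet_Iio`.
* `xray_integral`: if `1 ≤ d` the integrand vanishes. If `d < 1`, put `L = √((1 - d) / a)`; the
  integrand is `1 / √((1 - d) - a (t - t0) ^ 2)` on `Ioo (t0 - L) (t0 + L)` and `0` outside.
  Antiderivative `F t = arcsin ((t - t0) / L) / √a`: continuous on `Icc (t0 - L) (t0 + L)`, with
  derivative the integrand on the open interval (`Real.hasDerivAt_arcsin`), the integrand is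
  nonnegative, so it is interval integrable (`intervalIntegral.integrableOn_deriv_of_nonneg`) and
  `intervalIntegral.integral_eq_sub_of_hasDerivAt_of_le` gives
  `F (t0 + L) - F (t0 - L) = (arcsin 1 - arcsin (-1)) / √a = π / √a`. Convert with
  `ofReal_integral_eq_lintegral_ofReal` (and `lintegral_indicator` for the restriction to `Ioo`).
-/

open MeasureTheory Set Module
open scoped ENNReal

namespace Vale.Agent.H65.SymAbs

open Vale.Agent.H76

theorem measurable_wt : Measurable wt := by
  unfold wt
  refine Measurable.ite measurableSet_Iio ?_ measurable_const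
  exact ENNReal.measurable_ofReal.comp
    (measurable_const.div ((measurable_const.sub measurable_id).sqrt))

theorem xray_integral (a t0 d : ℝ) (ha : 0 < a) :
    ∫⁻ t : ℝ, wt (a * (t - t0) ^ 2 + d) =
      if d < 1 then ENNReal.ofReal (Real.pi / √a) else 0 := by
  by_cases hd : d < 1
  swap
  · rw [if_neg hd]
    push Not at hd
    have : ∀ t : ℝ, wt (a * (t - t0) ^ 2 + d) = 0 := by
      intro t
      apply wt_of_le
      nlinarith [sq_nonneg (t - t0)]
    simp [this]
  rw [if_pos hd]
  have hsa : 0 < √a := Real.sqrt_pos.2 ha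
  have hq : 0 < (1 - d) / a := div_pos (by linarith) ha
  set L : ℝ := √((1 - d) / a) with hL
  have hLpos : 0 < L := Real.sqrt_pos.2 hq
  have hLsq : L ^ 2 = (1 - d) / a := Real.sq_sqrt hq.le
  have hLa : L ^ 2 * a = 1 - d := by
    rw [hLsq]
    field_simp
  set g : ℝ → ℝ := fun t => 1 / √(1 - (a * (t - t0) ^ 2 + d)) with hg
  have hg0 : ∀ t, 0 ≤ g t := fun t => by positivity
  have hpt : ∀ t : ℝ, wt (a * (t - t0) ^ 2 + d)
      = (Ioo (t0 - L) (t0 + L)).indicator (fun t => ENNReal.ofReal (g t)) t := by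
    intro t
    by_cases ht : t ∈ Ioo (t0 - L) (t0 + L)
    · rw [indicator_of_mem ht]
      apply wt_of_lt
      have h1 : (t - t0) ^ 2 < L ^ 2 := by
        apply sq_lt_sq'
        · linarith [ht.1]
        · linarith [ht.2]
      nlinarith
    · rw [indicator_of_notMem ht]
      apply wt_of_le
      have h1 : L ^ 2 ≤ (t - t0) ^ 2 := by
        rw [mem_Ioo, not_and_or, not_lt, not_lt] at ht
        rcases ht with h | h <;> nlinarith
      nlinarith
  simp_rw [hpt]
  rw [lintegral_indicator measurableSet_Ioo]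
  set F : ℝ → ℝ := fun t => Real.arcsin ((t - t0) / L) / √a with hF
  have hFc : Continuous F := by
    apply Continuous.div_const
    exact Real.continuous_arcsin.comp ((continuous_id.sub continuous_const).div_const L)
  have hab : t0 - L ≤ t0 + L := by linarith
  have hderiv : ∀ x ∈ Ioo (t0 - L) (t0 + L), HasDerivAt F (g x) x := by
    intro x hx
    have hy1 : -1 < (x - t0) / L := by
      rw [lt_div_iff₀ hLpos]
      linarith [hx.1]
    have hy2 : (x - t0) / L < 1 := by
      rw [div_lt_iff₀ hLpos]
      linarith [hx.2]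
    have h1 := Real.hasDerivAt_arcsin hy1.ne' hy2.ne
    have hin : HasDerivAt (fun t : ℝ => (t - t0) / L) (1 / L) x :=
      ((hasDerivAt_id x).sub_const t0).div_const L
    have h2 := (HasDerivAt.comp x h1 hin).div_const (√a)
    have h3 : HasDerivAt F (1 / √(1 - ((x - t0) / L) ^ 2) * (1 / L) / √a) x := h2
    have hpos : 0 < 1 - ((x - t0) / L) ^ 2 := by nlinarith
    have hexp : (1 - ((x - t0) / L) ^ 2) * (L ^ 2 * a) = L ^ 2 * a - a * (x - t0) ^ 2 := by
      field_simp
    have heq : 1 - (a * (x - t0) ^ 2 + d) = (1 - ((x - t0) / L) ^ 2) * (L ^ 2 * a) := by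
      rw [hexp, hLa]
      ring
    have hsqrt : √(1 - (a * (x - t0) ^ 2 + d)) = √(1 - ((x - t0) / L) ^ 2) * (L * √a) := by
      rw [heq, Real.sqrt_mul hpos.le, Real.sqrt_mul (sq_nonneg L), Real.sqrt_sq hLpos.le]
    have hs1 : 0 < √(1 - ((x - t0) / L) ^ 2) := Real.sqrt_pos.2 hpos
    have hgx : g x = 1 / √(1 - ((x - t0) / L) ^ 2) * (1 / L) / √a := by
      show 1 / √(1 - (a * (x - t0) ^ 2 + d)) = _
      rw [hsqrt]
      field_simp
    rw [hgx]
    exact h3
  have hIoc : IntegrableOn g (Ioc (t0 - L) (t0 + L)) :=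
    intervalIntegral.integrableOn_deriv_of_nonneg hFc.continuousOn hderiv (fun x _ => hg0 x)
  have hII : IntervalIntegrable g volume (t0 - L) (t0 + L) :=
    (intervalIntegrable_iff_integrableOn_Ioc_of_le hab).2 hIoc
  have hftc : ∫ t in (t0 - L)..(t0 + L), g t = F (t0 + L) - F (t0 - L) :=
    intervalIntegral.integral_eq_sub_of_hasDerivAt_of_le hab hFc.continuousOn hderiv hII
  have hFb : F (t0 + L) = Real.pi / 2 / √a := by
    show Real.arcsin ((t0 + L - t0) / L) / √a = _
    have : (t0 + L - t0) / L = 1 := by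
      rw [add_sub_cancel_left]
      exact div_self hLpos.ne'
    rw [this, Real.arcsin_one]
  have hFa : F (t0 - L) = -(Real.pi / 2) / √a := by
    show Real.arcsin ((t0 - L - t0) / L) / √a = _
    have : (t0 - L - t0) / L = -1 := by
      have h0 : t0 - L - t0 = -L := by ring
      rw [h0, neg_div, div_self hLpos.ne']
    rw [this, Real.arcsin_neg_one]
  have hIoo : IntegrableOn g (Ioo (t0 - L) (t0 + L)) := hIoc.mono_set Ioo_subset_Ioc_self
  rw [← ofReal_integral_eq_lintegral_ofReal hIoo (Filter.Eventually.of_forall hg0)]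
  congr 1
  rw [← integral_Ioc_eq_integral_Ioo, ← intervalIntegral.integral_of_le hab, hftc, hFa, hFb]
  field_simp
  ring

end Vale.Agent.H65.SymAbs
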